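import Vale.Agent.P092.R3.H367.Base
import Vale.Agent.P092.H108.Iso

/-!
The corner `p L(Λ) p`: if there is a nonzero cubic intertwiner then `τ(p) ≥ 1`.
-/

set_option linter.all false

open scoped InnerProductSpace
open Filter Topology ContinuousLinearMap

namespace Vale.Agent.P092.H367

open Vale.Agent.P092.H160

namespace L547

/-! ### Averages in a Hilbert space -/

section hull

variable {H : Type} [NormedAddCommGroup H] [InnerProductSpace ℂ H] [CompleteSpace H]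

theorem exists_weights_gen {G : Type} [Group G] (U : G → (H →L[ℂ] H))
    (hU : ∀ g h, U (g * h) = U g * U h) (hUn : ∀ g x, ‖U g x‖ ≤ ‖x‖) (v : H) :
    ∃ ζ : H, (∀ g, U g ζ = ζ) ∧ ∀ ε > (0 : ℝ), ∃ (J : Type) (_ : Fintype J) (c : J → ℝ)
      (g : J → G), (∀ j, 0 ≤ c j) ∧ ∑ j, c j = 1 ∧
      ‖(∑ j, (c j : ℂ) • U (g j) v) - ζ‖ ≤ ε := by
  obtain ⟨ζ, hζ, hfix⟩ := H108.exists_fixed_hull (H := H) (LinearMap.id : H →ₗ[ℝ] H)
    (fun g => ((U g : H →ₗ[ℂ] H).restrictScalars ℝ)) v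
    (fun g h x => by
      change U g (U h x) = U (g * h) x
      rw [hU]; rfl)
    (fun g x => U g x) (fun g => (U g).continuous) hUn (fun g y _ => rfl)
  refine ⟨ζ, hfix, fun ε hε => ?_⟩
  rw [LinearMap.id_coe, Set.image_id] at hζ
  obtain ⟨y, hy, hd⟩ := Metric.mem_closure_iff.1 hζ ε hε
  rw [mem_convexHull_iff_exists_fintype] at hy
  obtain ⟨J, hJ, c, z, hc0, hc1, hz, rfl⟩ := hy
  choose g hg using hz
  refine ⟨J, hJ, c, g, hc0, hc1, ?_⟩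
  rw [dist_comm, dist_eq_norm] at hd
  refine le_of_eq_of_le ?_ hd.le
  congr 2
  refine Finset.sum_congr rfl fun j _ => ?_
  rw [← hg j, Complex.coe_smul]
  rfl

end hull

theorem coeff_zero {X : Type} (ξ : Ell2 X) {c : ℂ} {S : Set X} (hS : S.Infinite)
    (h : ∀ x ∈ S, ξ x = c) : c = 0 := by
  by_contra hc
  have h2 := (summable_sq ξ).tendsto_cofinite_zero
  have hpos : 0 < ‖c‖ ^ 2 := by positivity
  have h3 := h2.eventually (gt_mem_nhds hpos)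
  rw [Filter.eventually_cofinite] at h3
  refine hS (h3.subset fun x hx => ?_)
  change ¬ (‖ξ x‖ ^ 2 < ‖c‖ ^ 2)
  rw [h x hx]
  exact lt_irrefl _

/-- matrix coefficients of a family of permutations which moves every point to infinity -/
theorem coeff_tendsto {Y G : Type} (e : G → Y ≃ Y)
    (he : ∀ a : Y, Function.Injective fun x => (e x).symm a) (u v : Ell2 Y) :
    Tendsto (fun x : G => ⟪u, rei (e x) v⟫_ℂ) cofinite (𝓝 0) := by
  have hb : ∀ a : Y, Tendsto (fun x : G => ⟪(dl a : Ell2 Y), rei (e x) v⟫_ℂ) cofinite (𝓝 0) := by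
    intro a
    simp only [inner_dl, rei_apply]
    have h1 : Tendsto (fun y => v y) cofinite (𝓝 0) := by
      have h2 := (summable_sq v).tendsto_cofinite_zero
      rw [tendsto_zero_iff_norm_tendsto_zero]
      have h3 := (Real.continuous_sqrt.tendsto 0).comp h2
      rw [Real.sqrt_zero] at h3
      refine h3.congr fun y => ?_
      simp only [Function.comp_apply]
      exact Real.sqrt_sq (norm_nonneg _)
    exact h1.comp (he a).tendsto_cofinite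
  have hs : ∀ s : Finset Y, ∀ c : Y → ℂ,
      Tendsto (fun x : G => ⟪∑ a ∈ s, c a • (dl a : Ell2 Y), rei (e x) v⟫_ℂ) cofinite (𝓝 0) := by
    intro s c
    simp only [sum_inner, inner_smul_left]
    have : Tendsto (fun x : G => ∑ a ∈ s, (starRingEnd ℂ) (c a) *
        ⟪(dl a : Ell2 Y), rei (e x) v⟫_ℂ)
        cofinite (𝓝 (∑ a ∈ s, (starRingEnd ℂ) (c a) * 0)) :=
      tendsto_finsetSum s fun a _ => (hb a).const_mul _
    simpa using this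
  rw [Metric.tendsto_nhds]
  intro ε hε
  have h1 := (hasSum_dl u).eventually (Metric.ball_mem_nhds u (ε := ε / (2 * (‖v‖ + 1)))
    (by positivity))
  obtain ⟨s, hs'⟩ := h1.exists
  have h2 := (Metric.tendsto_nhds.mp (hs s fun a => u a)) (ε / 2) (by positivity)
  filter_upwards [h2] with x hx
  rw [dist_zero_right] at hx ⊢
  have h3 : ⟪u, rei (e x) v⟫_ℂ = ⟪u - ∑ a ∈ s, u a • (dl a : Ell2 Y), rei (e x) v⟫_ℂ +
      ⟪∑ a ∈ s, u a • (dl a : Ell2 Y), rei (e x) v⟫_ℂ := by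
    rw [← inner_add_left, sub_add_cancel]
  rw [h3]
  have hs'' : ‖u - ∑ a ∈ s, u a • (dl a : Ell2 Y)‖ < ε / (2 * (‖v‖ + 1)) := by
    rw [← dist_eq_norm, dist_comm]
    exact hs'
  have h4 : ‖⟪u - ∑ a ∈ s, u a • (dl a : Ell2 Y), rei (e x) v⟫_ℂ‖ ≤ ε / 2 := by
    calc ‖⟪u - ∑ a ∈ s, u a • (dl a : Ell2 Y), rei (e x) v⟫_ℂ‖
        ≤ ‖u - ∑ a ∈ s, u a • (dl a : Ell2 Y)‖ * ‖rei (e x) v‖ := norm_inner_le_norm _ _
      _ ≤ ε / (2 * (‖v‖ + 1)) * (‖v‖ + 1) := by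
          rw [norm_rei]
          gcongr
          linarith
      _ = ε / 2 := by field_simp
  calc _ ≤ ‖⟪u - ∑ a ∈ s, u a • (dl a : Ell2 Y), rei (e x) v⟫_ℂ‖ +
        ‖⟪∑ a ∈ s, u a • (dl a : Ell2 Y), rei (e x) v⟫_ℂ‖ := norm_add_le _ _
    _ < ε := by linarith

/-! ### Left translations and averages -/

section left

variable {I Λ : Type} [Group Λ]

/-- Left translation on `I × Λ`. -/
noncomputable def Lr (I : Type) {Λ : Type} [Group Λ] (g : Λ) :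
    Ell2 (I × Λ) →L[ℂ] Ell2 (I × Λ) :=
  rei (Equiv.prodCongr (Equiv.refl I) (Equiv.mulLeft g))

theorem Lr_dl (g : Λ) (i : I) (h : Λ) : Lr I g (dl (i, h)) = dl (i, g * h) := by
  rw [Lr, rei_dl]; rfl

theorem Lr_apply (g : Λ) (ξ : Ell2 (I × Λ)) (i : I) (h : Λ) :
    Lr I g ξ (i, h) = ξ (i, g⁻¹ * h) := rfl

theorem Lr_mul (g h : Λ) : Lr I (g * h) = Lr I g * Lr I h := by
  apply op_ext
  rintro ⟨i, x⟩
  rw [mul_ap, Lr_dl, Lr_dl, Lr_dl, mul_assoc]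

theorem Lr_one : Lr I (1 : Λ) = 1 := by
  apply op_ext
  rintro ⟨i, x⟩
  rw [Lr_dl, one_mul]; rfl

theorem adjoint_Lr (g : Λ) : adjoint (Lr I g) = Lr I g⁻¹ := by
  rw [Lr, adjoint_rei]
  apply op_ext
  rintro ⟨i, h⟩
  rw [Lr_dl, rei_dl]
  simp

theorem Lr_Rr (g s : Λ) : Lr I g * Rr I s = Rr I s * Lr I g := by
  apply op_ext
  rintro ⟨i, x⟩
  rw [mul_ap, mul_ap, Rr_dl, Lr_dl, Lr_dl, Rr_dl, mul_assoc]

theorem norm_Lr (g : Λ) (v : Ell2 (I × Λ)) : ‖Lr I g v‖ = ‖v‖ := norm_rei _ _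
theorem norm_Rr (g : Λ) (v : Ell2 (I × Λ)) : ‖Rr I g v‖ = ‖v‖ := norm_rei _ _

theorem Lr_eqv (g : Λ) : Eqv (RrH I Λ) (Lr I g) := fun s v => by
  rw [RrH_apply, ← mul_ap, ← mul_ap, Lr_Rr]

theorem norm_Lr_mul_le (g h : Λ) (D : Ell2 (I × Λ) →L[ℂ] Ell2 (I × Λ)) :
    ‖Lr I g * D * Lr I h‖ ≤ ‖D‖ := by
  refine ContinuousLinearMap.opNorm_le_bound _ (norm_nonneg _) fun ξ => ?_
  rw [mul_ap, mul_ap, norm_Lr]
  refine (D.le_opNorm _).trans ?_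
  rw [norm_Lr]

variable {J : Type} [Fintype J]

/-- The average `∑ c_j λ(g_j) D λ(g_j)*`. -/
noncomputable def av (c : J → ℝ) (g : J → Λ) (D : Ell2 (I × Λ) →L[ℂ] Ell2 (I × Λ)) :
    Ell2 (I × Λ) →L[ℂ] Ell2 (I × Λ) :=
  ∑ j, (c j : ℂ) • (Lr I (g j) * D * Lr I (g j)⁻¹)

theorem av_apply (c : J → ℝ) (g : J → Λ) (D : Ell2 (I × Λ) →L[ℂ] Ell2 (I × Λ))
    (v : Ell2 (I × Λ)) :
    av c g D v = ∑ j, (c j : ℂ) • Lr I (g j) (D (Lr I (g j)⁻¹ v)) := by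
  rw [av, ContinuousLinearMap.sum_apply]
  rfl

theorem norm_av_le {c : J → ℝ} (hc : ∀ j, 0 ≤ c j) (hc1 : ∑ j, c j = 1) (g : J → Λ)
    (D : Ell2 (I × Λ) →L[ℂ] Ell2 (I × Λ)) : ‖av c g D‖ ≤ ‖D‖ := by
  calc ‖av c g D‖ ≤ ∑ j, ‖(c j : ℂ) • (Lr I (g j) * D * Lr I (g j)⁻¹)‖ := norm_sum_le _ _
    _ ≤ ∑ j, c j * ‖D‖ := by
        refine Finset.sum_le_sum fun j _ => ?_
        rw [norm_smul, Complex.norm_real, Real.norm_of_nonneg (hc j)]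
        exact mul_le_mul_of_nonneg_left (norm_Lr_mul_le _ _ _) (hc j)
    _ = ‖D‖ := by rw [← Finset.sum_mul, hc1, one_mul]

theorem adjoint_av (c : J → ℝ) (g : J → Λ) {D : Ell2 (I × Λ) →L[ℂ] Ell2 (I × Λ)}
    (hD : adjoint D = D) : adjoint (av c g D) = av c g D := by
  rw [av, map_sum]
  refine Finset.sum_congr rfl fun j _ => ?_
  rw [LinearIsometryEquiv.map_smulₛₗ, Complex.conj_ofReal]
  congr 1
  change adjoint ((Lr I (g j) ∘L D) ∘L Lr I (g j)⁻¹) = _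
  rw [adjoint_comp, adjoint_comp, hD, adjoint_Lr, adjoint_Lr, inv_inv]
  rfl

theorem av_eqv (c : J → ℝ) (g : J → Λ) {D : Ell2 (I × Λ) →L[ℂ] Ell2 (I × Λ)}
    (hD : Eqv (RrH I Λ) D) : Eqv (RrH I Λ) (av c g D) :=
  Eqv.sum _ fun j _ => (((Lr_eqv _).mul hD).mul (Lr_eqv _)).smul _

theorem av_RR (c : J → ℝ) (g : J → Λ) (D : Ell2 (I × Λ) →L[ℂ] Ell2 (I × Λ)) (a b : Λ) :
    av c g (Rr I a * D * Rr I b) = Rr I a * av c g D * Rr I b := by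
  rw [av, av, Finset.mul_sum, Finset.sum_mul]
  refine Finset.sum_congr rfl fun j _ => ?_
  rw [mul_smul_comm, smul_mul_assoc]
  congr 1
  calc Lr I (g j) * (Rr I a * D * Rr I b) * Lr I (g j)⁻¹
      = (Lr I (g j) * Rr I a) * D * (Rr I b * Lr I (g j)⁻¹) := by simp only [mul_assoc]
    _ = (Rr I a * Lr I (g j)) * D * (Lr I (g j)⁻¹ * Rr I b) := by rw [Lr_Rr, Lr_Rr]
    _ = _ := by simp only [mul_assoc]

theorem av_LL (c : J → ℝ) (g : J → Λ) (D : Ell2 (I × Λ) →L[ℂ] Ell2 (I × Λ)) (k : Λ) :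
    av c (fun j => k * g j) D = Lr I k * av c g D * Lr I k⁻¹ := by
  rw [av, av, Finset.mul_sum, Finset.sum_mul]
  refine Finset.sum_congr rfl fun j _ => ?_
  rw [mul_smul_comm, smul_mul_assoc, mul_inv_rev, Lr_mul, Lr_mul]
  congr 1

/-- The commutant of the corner `p N p`. -/
structure InD (p D : Ell2 (I × Λ) →L[ℂ] Ell2 (I × Λ)) : Prop where
  left : p * D = D
  right : D * p = D
  comm : ∀ g, D * (p * Lr I g * p) = (p * Lr I g * p) * D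

theorem InD.key {p D : Ell2 (I × Λ) →L[ℂ] Ell2 (I × Λ)} (h : InD p D) (g : Λ) :
    p * Lr I g * D = D * Lr I g * p := by
  calc p * Lr I g * D = p * Lr I g * (p * D) := by rw [h.left]
    _ = (p * Lr I g * p) * D := by simp only [mul_assoc]
    _ = D * (p * Lr I g * p) := (h.comm g).symm
    _ = (D * p) * Lr I g * p := by simp only [mul_assoc]
    _ = _ := by rw [h.right]

theorem av_key {p D : Ell2 (I × Λ) →L[ℂ] Ell2 (I × Λ)} (h : InD p D) {J' : Type} [Fintype J']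
    (c : J → ℝ) (g : J → Λ) (c' : J' → ℝ) (g' : J' → Λ) :
    av c g p * av c' g' D = av c g D * av c' g' p := by
  rw [av, av, av, av, Finset.sum_mul_sum, Finset.sum_mul_sum]
  refine Finset.sum_congr rfl fun j _ => Finset.sum_congr rfl fun k _ => ?_
  rw [smul_mul_smul_comm, smul_mul_smul_comm]
  congr 1
  have h1 : Lr I (g j)⁻¹ * Lr I (g' k) = Lr I ((g j)⁻¹ * g' k) := (Lr_mul _ _).symm
  calc Lr I (g j) * p * Lr I (g j)⁻¹ * (Lr I (g' k) * D * Lr I (g' k)⁻¹)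
      = Lr I (g j) * (p * (Lr I (g j)⁻¹ * Lr I (g' k)) * D) * Lr I (g' k)⁻¹ := by
        simp only [mul_assoc]
    _ = Lr I (g j) * (D * (Lr I (g j)⁻¹ * Lr I (g' k)) * p) * Lr I (g' k)⁻¹ := by
        rw [h1, h.key]
    _ = _ := by simp only [mul_assoc]

theorem av_key' {p D : Ell2 (I × Λ) →L[ℂ] Ell2 (I × Λ)} (h : InD p D)
    (c : J → ℝ) (g : J → Λ) : av c g p * D = av c g D * p := by
  have h1 := av_key h c g (fun _ : Unit => (1 : ℝ)) (fun _ : Unit => (1 : Λ))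
  have h2 : ∀ E : Ell2 (I × Λ) →L[ℂ] Ell2 (I × Λ),
      av (fun _ : Unit => (1 : ℝ)) (fun _ : Unit => (1 : Λ)) E = E := by
    intro E
    rw [av, Fintype.sum_unique, inv_one, Lr_one, one_mul, mul_one, Complex.ofReal_one, one_smul]
  rw [h2, h2] at h1
  exact h1

end left

/-! ### Right translations of the cube -/

section cube

variable {I Λ : Type} [Group Λ]

/-- `ρ(x₁) ⊗ ρ(x₂) ⊗ ρ(x₃)` -/
noncomputable def r3 (I : Type) {Λ : Type} [Group Λ] (x : Λ × Λ × Λ) :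
    Ell2 ((I × Λ) × (I × Λ) × (I × Λ)) →L[ℂ] Ell2 ((I × Λ) × (I × Λ) × (I × Λ)) :=
  tens (Rr I x.1) (tens (Rr I x.2.1) (Rr I x.2.2))

theorem r3_diag (s : Λ) : R3H I Λ s = r3 I (s, s, s) := rfl

theorem r3_mul (x y : Λ × Λ × Λ) : r3 I (x * y) = r3 I x * r3 I y := by
  change tens (Rr I (x.1 * y.1)) (tens (Rr I (x.2.1 * y.2.1)) (Rr I (x.2.2 * y.2.2))) = _
  rw [Rr_mul, Rr_mul, Rr_mul, tens_mul, tens_mul]
  rfl

theorem r3_one : r3 I (1 : Λ × Λ × Λ) = 1 := by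
  change tens (Rr I 1) (tens (Rr I 1) (Rr I 1)) = _
  rw [Rr_one, tens_one, tens_one]

theorem adjoint_r3 (x : Λ × Λ × Λ) : adjoint (r3 I x) = r3 I x⁻¹ := by
  rw [r3, adjoint_tens, adjoint_tens, adjoint_Rr, adjoint_Rr, adjoint_Rr]
  rfl

theorem r3_dl (x : Λ × Λ × Λ) (i j k : I) (a b c : Λ) :
    r3 I x (dl ((i, a), (j, b), (k, c))) =
      dl ((i, a * x.1⁻¹), (j, b * x.2.1⁻¹), (k, c * x.2.2⁻¹)) := by
  rw [r3, tens_dl, tens_dl, Rr_dl, Rr_dl, Rr_dl, ← dl_prod, ← dl_prod]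

theorem r3_tendsto (u v : Ell2 ((I × Λ) × (I × Λ) × (I × Λ))) :
    Tendsto (fun x : Λ × Λ × Λ => ⟪u, r3 I x v⟫_ℂ) cofinite (𝓝 0) := by
  have h := coeff_tendsto (G := Λ × Λ × Λ) (fun x => Equiv.prodCongr
    (Equiv.prodCongr (Equiv.refl I) (Equiv.mulRight x.1⁻¹))
    (Equiv.prodCongr (Equiv.prodCongr (Equiv.refl I) (Equiv.mulRight x.2.1⁻¹))
      (Equiv.prodCongr (Equiv.refl I) (Equiv.mulRight x.2.2⁻¹)))) ?_ u v
  · refine h.congr fun x => ?_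
    rw [r3, Rr, Rr, Rr, tens_rei, tens_rei]
  · rintro ⟨⟨i, a⟩, ⟨j, b⟩, ⟨k, c⟩⟩ ⟨x1, x2, x3⟩ ⟨y1, y2, y3⟩ h
    simp only [Equiv.prodCongr_symm, Equiv.prodCongr_apply, Prod.map_apply, Prod.mk.injEq,
      Equiv.refl_symm, Equiv.refl_apply, true_and] at h
    obtain ⟨h1, h2, h3⟩ := h
    have e1 : a * x1⁻¹⁻¹ = a * y1⁻¹⁻¹ := h1
    have e2 : b * x2⁻¹⁻¹ = b * y2⁻¹⁻¹ := h2
    have e3 : c * x3⁻¹⁻¹ = c * y3⁻¹⁻¹ := h3
    simp only [inv_inv, mul_right_inj] at e1 e2 e3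
    rw [e1, e2, e3]

end cube

/-! ### The commutant of the corner -/

section comm

variable {I Λ Γ : Type} [Fintype I] [Group Λ] [Group Γ]
  {p : Ell2 (I × Λ) →L[ℂ] Ell2 (I × Λ)} {α : Γ → (Ell2 (I × Λ) →L[ℂ] Ell2 (I × Λ))}
  {T : Ell2 (I × Λ) →L[ℂ] Ell2 ((I × Λ) × (I × Λ) × (I × Λ))}

theorem T_p (ha : AFrame p α) (hT : Itw3 α T) : T ∘L p = T := by
  have h := hT.inv 1
  rw [inv_one, ha.one] at h
  calc T ∘L p = (A3 α (1, 1, 1) ∘L T ∘L p) ∘L p := by rw [h]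
    _ = A3 α (1, 1, 1) ∘L T ∘L (p ∘L p) := rfl
    _ = A3 α (1, 1, 1) ∘L T ∘L p := by rw [show p ∘L p = p from ha.p_idem]
    _ = T := h

theorem P3_T (ha : AFrame p α) (hT : Itw3 α T) : A3 α (1, 1, 1) ∘L T = T := by
  have h := hT.inv 1
  rw [inv_one, ha.one, T_p ha hT] at h
  exact h

theorem T_alpha (ha : AFrame p α) (hT : Itw3 α T) (g : Γ) :
    A3 α (g, g, g) ∘L T = T ∘L α g := by
  have h := hT.inv g
  have h1 : α g⁻¹ ∘L α g = p := by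
    rw [← ha.one, ← inv_mul_cancel g]
    exact (ha.mul _ _).symm
  calc A3 α (g, g, g) ∘L T = A3 α (g, g, g) ∘L (T ∘L p) := by rw [T_p ha hT]
    _ = A3 α (g, g, g) ∘L T ∘L (α g⁻¹ ∘L α g) := by rw [h1]
    _ = (A3 α (g, g, g) ∘L T ∘L α g⁻¹) ∘L α g := rfl
    _ = T ∘L α g := by rw [h]

theorem adjoint_A3 (ha : AFrame p α) (y : Γ × Γ × Γ) : adjoint (A3 α y) = A3 α y⁻¹ := by
  rw [A3, adjoint_tens, adjoint_tens, adjoint_bar, ha.adj, ha.adj, ha.adj]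
  rfl

theorem alpha_T (ha : AFrame p α) (hT : Itw3 α T) (g : Γ) :
    adjoint T ∘L A3 α (g, g, g) = α g ∘L adjoint T := by
  have h := congrArg adjoint (T_alpha ha hT g⁻¹)
  rw [adjoint_comp, adjoint_comp, adjoint_A3 ha, ha.adj, inv_inv] at h
  have e : ((g⁻¹, g⁻¹, g⁻¹) : Γ × Γ × Γ)⁻¹ = (g, g, g) := by
    rw [Prod.inv_mk, Prod.inv_mk, inv_inv]
  rw [e] at h
  exact h

theorem alpha_Rr (ha : AFrame p α) (g : Γ) (s : Λ) : α g * Rr I s = Rr I s * α g := by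
  ext1 v
  exact ha.eqv g s v

theorem bar_alpha_Rr (ha : AFrame p α) (g : Γ) (s : Λ) :
    bar (α g) * Rr I s = Rr I s * bar (α g) := by
  rw [← bar_Rr s, ← bar_mul, ← bar_mul, alpha_Rr ha]

theorem A3_r3 (ha : AFrame p α) (y : Γ × Γ × Γ) (x : Λ × Λ × Λ) :
    A3 α y * r3 I x = r3 I x * A3 α y := by
  rw [A3, r3, ← tens_mul, ← tens_mul, ← tens_mul, ← tens_mul, alpha_Rr ha, alpha_Rr ha,
    bar_alpha_Rr ha]

/-- `T* ρ(x) T` -/
noncomputable def DD (T : Ell2 (I × Λ) →L[ℂ] Ell2 ((I × Λ) × (I × Λ) × (I × Λ)))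
    (x : Λ × Λ × Λ) : Ell2 (I × Λ) →L[ℂ] Ell2 (I × Λ) := adjoint T ∘L r3 I x ∘L T

theorem norm_r3_le (x : Λ × Λ × Λ) (v : Ell2 ((I × Λ) × (I × Λ) × (I × Λ))) :
    ‖r3 I x v‖ = ‖v‖ := by
  rw [r3, Rr, Rr, Rr, tens_rei, tens_rei, norm_rei]

theorem norm_DD_le (x : Λ × Λ × Λ) : ‖DD T x‖ ≤ ‖T‖ ^ 2 := by
  refine ContinuousLinearMap.opNorm_le_bound _ (by positivity) fun v => ?_
  change ‖adjoint T (r3 I x (T v))‖ ≤ _
  calc _ ≤ ‖adjoint T‖ * ‖r3 I x (T v)‖ := (adjoint T).le_opNorm _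
    _ = ‖T‖ * ‖T v‖ := by rw [norm_r3_le, LinearIsometryEquiv.norm_map]
    _ ≤ ‖T‖ * (‖T‖ * ‖v‖) := by
        gcongr
        exact T.le_opNorm v
    _ = _ := by ring

theorem DD_alpha (ha : AFrame p α) (hT : Itw3 α T) (x : Λ × Λ × Λ) (g : Γ) :
    DD T x * α g = α g * DD T x := by
  calc DD T x * α g = adjoint T ∘L (r3 I x ∘L (T ∘L α g)) := rfl
    _ = adjoint T ∘L (r3 I x * A3 α (g, g, g)) ∘L T := by rw [← T_alpha ha hT]; rfl
    _ = adjoint T ∘L (A3 α (g, g, g) * r3 I x) ∘L T := by rw [A3_r3 ha]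
    _ = (adjoint T ∘L A3 α (g, g, g)) ∘L r3 I x ∘L T := rfl
    _ = (α g ∘L adjoint T) ∘L r3 I x ∘L T := by rw [alpha_T ha hT]
    _ = α g * DD T x := rfl

theorem DD_p (ha : AFrame p α) (hT : Itw3 α T) (x : Λ × Λ × Λ) : DD T x * p = DD T x := by
  calc DD T x * p = adjoint T ∘L r3 I x ∘L (T ∘L p) := rfl
    _ = _ := by rw [T_p ha hT]; rfl

theorem p_DD (ha : AFrame p α) (hT : Itw3 α T) (x : Λ × Λ × Λ) : p * DD T x = DD T x := by
  have h := congrArg adjoint (T_p ha hT)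
  rw [adjoint_comp, ha.p_adj] at h
  calc p * DD T x = (p ∘L adjoint T) ∘L r3 I x ∘L T := rfl
    _ = _ := by rw [h]; rfl

theorem norm_dl_le {A : Ell2 (I × Λ) →L[ℂ] Ell2 (I × Λ)} (hA : Eqv (RrH I Λ) A) (y : I × Λ)
    {ε : ℝ} (hε : 0 ≤ ε) (h : hsn A ≤ ε ^ 2) : ‖A (dl y)‖ ≤ ε := by
  obtain ⟨i, x⟩ := y
  rw [hA.apply_dl, RrH_apply, norm_Rr]
  refine abs_le_of_sq_le_sq' ?_ hε |>.2
  refine le_trans ?_ h
  exact Finset.single_le_sum (f := fun i : I => ‖A (dl (i, 1))‖ ^ 2)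
    (fun _ _ => by positivity) (Finset.mem_univ i)

theorem DD_comm (ha : AFrame p α) (hT : Itw3 α T) (x : Λ × Λ × Λ)
    {A : Ell2 (I × Λ) →L[ℂ] Ell2 (I × Λ)} (hA : Eqv (RrH I Λ) A) (h1 : p * A = A)
    (h2 : A * p = A) : DD T x * A = A * DD T x := by
  obtain ⟨D, hD⟩ : ∃ D, D = DD T x := ⟨_, rfl⟩
  have hDa : ∀ g, D * α g = α g * D := fun g => by rw [hD, DD_alpha ha hT]
  rw [← hD]
  apply op_ext
  intro y
  apply ext_inner_dl
  intro a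
  rw [← inner_dl, ← inner_dl, ← sub_eq_zero, ← norm_eq_zero]
  refine le_antisymm ?_ (norm_nonneg _)
  refine le_of_forall_pos_le_add fun δ hδ => ?_
  rw [zero_add]
  obtain ⟨ε, hε⟩ : ∃ ε : ℝ, ε = δ / (2 * ‖D‖ + 1) := ⟨_, rfl⟩
  have hε0 : 0 < ε := by rw [hε]; positivity
  have hεδ : 2 * ‖D‖ * ε ≤ δ := by
    rw [hε, mul_div_assoc', div_le_iff₀ (by positivity)]
    nlinarith [norm_nonneg D]
  obtain ⟨F, c, h⟩ := ha.tot A hA h1 h2 (ε ^ 2) (by positivity)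
  obtain ⟨S, hS⟩ : ∃ S, S = ∑ g ∈ F, c g • α g := ⟨_, rfl⟩
  rw [← hS] at h
  have hSe : Eqv (RrH I Λ) S := by
    rw [hS]
    exact Eqv.sum F fun g _ => (ha.eqv g).smul (c g)
  have hSD : D * S = S * D := by
    rw [hS, Finset.mul_sum, Finset.sum_mul]
    refine Finset.sum_congr rfl fun g _ => ?_
    rw [mul_smul_comm, smul_mul_assoc, hDa]
  have hE : Eqv (RrH I Λ) (A - S) := hA.sub hSe
  have hE1 := norm_dl_le hE y hε0.le h
  have hE2 := norm_dl_le hE.adjoint a hε0.le (by rw [hsn_adjoint hE]; exact h)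
  have e1 : D * A - A * D = D * (A - S) - (A - S) * D := by
    rw [mul_sub, sub_mul, hSD]
    abel
  have e2 : ⟪(dl a : Ell2 (I × Λ)), (D * A) (dl y)⟫_ℂ - ⟪(dl a : Ell2 (I × Λ)), (A * D) (dl y)⟫_ℂ =
      ⟪(dl a : Ell2 (I × Λ)), D ((A - S) (dl y))⟫_ℂ -
      ⟪adjoint (A - S) (dl a : Ell2 (I × Λ)), D (dl y)⟫_ℂ := by
    rw [adjoint_inner_left, ← inner_sub_right, ← inner_sub_right]
    exact congrArg (fun B : Ell2 (I × Λ) →L[ℂ] Ell2 (I × Λ) =>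
      ⟪(dl a : Ell2 (I × Λ)), B (dl y)⟫_ℂ) e1
  rw [e2]
  refine le_trans (norm_sub_le _ _) ?_
  have h3 : ‖⟪(dl a : Ell2 (I × Λ)), D ((A - S) (dl y))⟫_ℂ‖ ≤ ‖D‖ * ε := by
    refine (norm_inner_le_norm _ _).trans ?_
    rw [norm_dl, one_mul]
    refine (D.le_opNorm _).trans ?_
    gcongr
  have h4 : ‖⟪adjoint (A - S) (dl a : Ell2 (I × Λ)), D (dl y)⟫_ℂ‖ ≤ ε * ‖D‖ := by
    refine (norm_inner_le_norm _ _).trans ?_
    have h5 : ‖D (dl y)‖ ≤ ‖D‖ := by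
      refine (D.le_opNorm _).trans ?_
      rw [norm_dl, mul_one]
    gcongr
  linarith

theorem DD_InD (ha : AFrame p α) (hT : Itw3 α T) (x : Λ × Λ × Λ) : InD p (DD T x) where
  left := p_DD ha hT x
  right := DD_p ha hT x
  comm g := by
    have hp : Eqv (RrH I Λ) p := by rw [← ha.one]; exact ha.eqv 1
    refine DD_comm ha hT x ((hp.mul (Lr_eqv g)).mul hp) ?_ ?_
    · rw [← mul_assoc, ← mul_assoc, ha.p_idem]
    · rw [mul_assoc, ha.p_idem]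

theorem R3_T (hT : Itw3 α T) (s : Λ) : r3 I (s, s, s) ∘L T = T ∘L Rr I s := by
  ext1 v
  exact (hT.eqv s v).symm

theorem T_R3 (hT : Itw3 α T) (s : Λ) : adjoint T ∘L r3 I (s, s, s) = Rr I s ∘L adjoint T := by
  have h := congrArg adjoint (R3_T hT s⁻¹)
  rw [adjoint_comp, adjoint_comp, adjoint_r3, adjoint_Rr, inv_inv] at h
  have e : ((s⁻¹, s⁻¹, s⁻¹) : Λ × Λ × Λ)⁻¹ = (s, s, s) := by
    rw [Prod.inv_mk, Prod.inv_mk, inv_inv]
  rw [e] at h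
  exact h

theorem DD_diag (hT : Itw3 α T) (x : Λ × Λ × Λ) (a b : Λ) :
    DD T ((a, a, a) * x * (b, b, b)) = Rr I a * DD T x * Rr I b := by
  rw [DD, r3_mul, r3_mul]
  calc adjoint T ∘L (r3 I (a, a, a) * r3 I x * r3 I (b, b, b)) ∘L T
      = (adjoint T ∘L r3 I (a, a, a)) ∘L r3 I x ∘L (r3 I (b, b, b) ∘L T) := rfl
    _ = (Rr I a ∘L adjoint T) ∘L r3 I x ∘L (T ∘L Rr I b) := by rw [T_R3 hT, R3_T hT]
    _ = _ := rfl

end comm

/-! ### The case of one block -/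

section main

variable {I Λ Γ : Type} [Fintype I] [Unique I] [Group Λ] [Group Γ]
  {p : Ell2 (I × Λ) →L[ℂ] Ell2 (I × Λ)} {α : Γ → (Ell2 (I × Λ) →L[ℂ] Ell2 (I × Λ))}
  {T : Ell2 (I × Λ) →L[ℂ] Ell2 ((I × Λ) × (I × Λ) × (I × Λ))}

/-- The base vector. -/
noncomputable def d1 (I Λ : Type) [Unique I] [Group Λ] : Ell2 (I × Λ) := dl (default, 1)

theorem hsn_eq {K : Type} [NormedAddCommGroup K] [InnerProductSpace ℂ K] [CompleteSpace K]
    (A : Ell2 (I × Λ) →L[ℂ] K) : hsn A = ‖A (d1 I Λ)‖ ^ 2 :=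
  Fintype.sum_unique _

omit [Fintype I] in
theorem Lr_d1 (k : Λ) : Lr I k (d1 I Λ) = Rr I k⁻¹ (d1 I Λ) := by
  rw [d1, Lr_dl, Rr_dl, inv_inv, mul_one, one_mul]

omit [Fintype I] in
theorem norm_d1 : ‖d1 I Λ‖ = 1 := norm_dl _

omit [Fintype I] in
theorem dl_eq (y : I × Λ) : (dl y : Ell2 (I × Λ)) = Rr I y.2⁻¹ (d1 I Λ) := by
  obtain ⟨i, h⟩ := y
  rw [Unique.eq_default i]
  exact dl_eq_Rr default h

theorem inner_p (hp : adjoint p = p) (hi : p * p = p) :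
    ⟪d1 I Λ, p (d1 I Λ)⟫_ℂ = ((hsn p : ℝ) : ℂ) := by
  rw [hsn_eq]
  calc ⟪d1 I Λ, p (d1 I Λ)⟫_ℂ = ⟪d1 I Λ, (p * p) (d1 I Λ)⟫_ℂ := by rw [hi]
    _ = ⟪adjoint p (d1 I Λ), p (d1 I Λ)⟫_ℂ := by rw [adjoint_inner_left]; rfl
    _ = _ := by
      rw [hp, inner_self_eq_norm_sq_to_K]
      push_cast
      rfl

theorem exists_weights (hp : Eqv (RrH I Λ) p) (hadj : adjoint p = p) (hi : p * p = p)
    (hΛ : ∀ g : Λ, g ≠ 1 → Set.Infinite {y : Λ | ∃ h, y = h * g * h⁻¹}) {ε : ℝ} (hε : 0 < ε) :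
    ∃ (J : Type) (_ : Fintype J) (c : J → ℝ) (g : J → Λ), (∀ j, 0 ≤ c j) ∧ ∑ j, c j = 1 ∧
      ‖av c g p (d1 I Λ) - ((hsn p : ℝ) : ℂ) • d1 I Λ‖ ≤ ε := by
  obtain ⟨ζ, hfix, h⟩ := exists_weights_gen (G := Λ) (fun g => Lr I g * Rr I g)
    (fun g h => by
      change Lr I (g * h) * Rr I (g * h) = Lr I g * Rr I g * (Lr I h * Rr I h)
      rw [Lr_mul, Rr_mul]
      calc Lr I g * Lr I h * (Rr I g * Rr I h) = Lr I g * (Lr I h * Rr I g) * Rr I h := by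
            simp only [mul_assoc]
        _ = Lr I g * (Rr I g * Lr I h) * Rr I h := by rw [Lr_Rr]
        _ = _ := by simp only [mul_assoc])
    (fun g x => by
      change ‖Lr I g (Rr I g x)‖ ≤ ‖x‖
      rw [norm_Lr, norm_Rr]) (p (d1 I Λ))
  have hav : ∀ {J : Type} [Fintype J] (c : J → ℝ) (g : J → Λ),
      av c g p (d1 I Λ) = ∑ j, (c j : ℂ) • (Lr I (g j) * Rr I (g j)) (p (d1 I Λ)) := by
    intro J _ c g
    rw [av_apply]
    refine Finset.sum_congr rfl fun j _ => ?_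
    rw [Lr_d1, inv_inv, hp, RrH_apply, mul_ap]
  have hcoord : ∀ v : Ell2 (I × Λ), ∀ g : Λ, ⟪d1 I Λ, (Lr I g * Rr I g) v⟫_ℂ = ⟪d1 I Λ, v⟫_ℂ := by
    intro v g
    rw [d1, inner_dl, inner_dl, mul_ap, Lr_apply, Rr_apply]
    congr 2
    group
  have hζ1 : ⟪d1 I Λ, ζ⟫_ℂ = ((hsn p : ℝ) : ℂ) := by
    rw [← sub_eq_zero, ← norm_eq_zero]
    refine le_antisymm ?_ (norm_nonneg _)
    refine le_of_forall_pos_le_add fun δ hδ => ?_
    rw [zero_add]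
    obtain ⟨J, hJ, c, g, hc0, hc1, h1⟩ := h δ hδ
    have h2 : ⟪d1 I Λ, ∑ j, (c j : ℂ) • (Lr I (g j) * Rr I (g j)) (p (d1 I Λ))⟫_ℂ =
        ((hsn p : ℝ) : ℂ) := by
      rw [inner_sum]
      calc ∑ j, ⟪d1 I Λ, (c j : ℂ) • (Lr I (g j) * Rr I (g j)) (p (d1 I Λ))⟫_ℂ
          = ∑ j, (c j : ℂ) * ((hsn p : ℝ) : ℂ) := by
            refine Finset.sum_congr rfl fun j _ => ?_
            rw [inner_smul_right, hcoord, inner_p hadj hi]
        _ = _ := by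
            rw [← Finset.sum_mul, ← Complex.ofReal_sum, hc1, Complex.ofReal_one, one_mul]
    rw [← h2, ← inner_sub_right, ← norm_neg, ← inner_neg_right, neg_sub]
    refine (norm_inner_le_norm _ _).trans ?_
    rw [norm_d1, one_mul]
    exact h1
  have hζ : ζ = ((hsn p : ℝ) : ℂ) • d1 I Λ := by
    apply ext_inner_dl
    rintro ⟨i, x⟩
    rw [Unique.eq_default i]
    by_cases hx : x = 1
    · rw [hx, ← hζ1, d1, inner_dl]
      change _ = ζ (default, 1) * (dl (default, 1) : Ell2 (I × Λ)) (default, 1)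
      rw [dl_self, mul_one]
    · have h1 : (((hsn p : ℝ) : ℂ) • d1 I Λ) (default, x) = 0 := by
        change ((hsn p : ℝ) : ℂ) * (dl (default, 1) : Ell2 (I × Λ)) (default, x) = 0
        rw [dl_ne (fun h => hx (Prod.mk.inj h).2), mul_zero]
      rw [h1]
      refine coeff_zero ζ (S := (fun y => ((default, y) : I × Λ)) ''
        {y : Λ | ∃ h, y = h * x * h⁻¹}) ((hΛ x hx).image fun a _ b _ h => (Prod.mk.inj h).2) ?_
      rintro _ ⟨_, ⟨k, rfl⟩, rfl⟩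
      have h3 : (Lr I k⁻¹ (Rr I k⁻¹ ζ) : Ell2 (I × Λ)) (default, x) = ζ (default, x) := by
        rw [← mul_ap, hfix]
      rw [Lr_apply, Rr_apply, inv_inv] at h3
      exact h3
  obtain ⟨J, hJ, c, g, hc0, hc1, h1⟩ := h ε hε
  refine ⟨J, hJ, c, g, hc0, hc1, ?_⟩
  rw [hav, ← hζ]
  exact h1

theorem cmp (hadj : adjoint p = p) {D : Ell2 (I × Λ) →L[ℂ] Ell2 (I × Λ)} (hD : InD p D)
    {J J' : Type} [Fintype J] [Fintype J'] {c : J → ℝ} {g : J → Λ} {c' : J' → ℝ} {g' : J' → Λ}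
    (hc : ∀ j, 0 ≤ c j) (hc1 : ∑ j, c j = 1) (hc' : ∀ j, 0 ≤ c' j) (hc1' : ∑ j, c' j = 1)
    {ε : ℝ} (h : ‖av c g p (d1 I Λ) - ((hsn p : ℝ) : ℂ) • d1 I Λ‖ ≤ ε)
    (h' : ‖av c' g' p (d1 I Λ) - ((hsn p : ℝ) : ℂ) • d1 I Λ‖ ≤ ε) :
    hsn p * ‖⟪d1 I Λ, av c g D (d1 I Λ)⟫_ℂ - ⟪d1 I Λ, av c' g' D (d1 I Λ)⟫_ℂ‖ ≤
      2 * ε * ‖D‖ := by
  have hε : 0 ≤ ε := (norm_nonneg _).trans h
  have hs : 0 ≤ hsn p := hsn_nonneg p
  have k1 : ⟪av c g p (d1 I Λ), av c' g' D (d1 I Λ)⟫_ℂ =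
      ⟪d1 I Λ, av c g D (av c' g' p (d1 I Λ))⟫_ℂ := by
    rw [← mul_ap, ← av_key hD, mul_ap]
    conv_lhs => rw [← adjoint_av c g hadj]
    rw [adjoint_inner_left]
  have k2 : ((hsn p : ℝ) : ℂ) * (⟪d1 I Λ, av c g D (d1 I Λ)⟫_ℂ -
      ⟪d1 I Λ, av c' g' D (d1 I Λ)⟫_ℂ) =
      ⟪av c g p (d1 I Λ) - ((hsn p : ℝ) : ℂ) • d1 I Λ, av c' g' D (d1 I Λ)⟫_ℂ -
      ⟪d1 I Λ, av c g D (av c' g' p (d1 I Λ) - ((hsn p : ℝ) : ℂ) • d1 I Λ)⟫_ℂ := by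
    rw [inner_sub_left, k1, map_sub, map_smul, inner_sub_right, inner_smul_left,
      inner_smul_right, Complex.conj_ofReal]
    ring
  have k3 := congrArg norm k2
  rw [norm_mul, Complex.norm_real, Real.norm_of_nonneg hs] at k3
  rw [k3]
  have n1 : ‖⟪av c g p (d1 I Λ) - ((hsn p : ℝ) : ℂ) • d1 I Λ, av c' g' D (d1 I Λ)⟫_ℂ‖ ≤
      ε * ‖D‖ := by
    refine (norm_inner_le_norm _ _).trans ?_
    have : ‖av c' g' D (d1 I Λ)‖ ≤ ‖D‖ := by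
      refine ((av c' g' D).le_opNorm _).trans ?_
      rw [norm_d1, mul_one]
      exact norm_av_le hc' hc1' g' D
    gcongr
  have n2 : ‖⟪d1 I Λ, av c g D (av c' g' p (d1 I Λ) - ((hsn p : ℝ) : ℂ) • d1 I Λ)⟫_ℂ‖ ≤
      ‖D‖ * ε := by
    refine (norm_inner_le_norm _ _).trans ?_
    rw [norm_d1, one_mul]
    refine ((av c g D).le_opNorm _).trans ?_
    have := norm_av_le hc hc1 g D
    gcongr
  refine (norm_sub_le _ _).trans ?_
  linarith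

/-- translated weights are as good -/
theorem good_translate (hp : Eqv (RrH I Λ) p) {J : Type} [Fintype J] {c : J → ℝ} {g : J → Λ}
    {ε : ℝ} (h : ‖av c g p (d1 I Λ) - ((hsn p : ℝ) : ℂ) • d1 I Λ‖ ≤ ε) (k : Λ) :
    ‖av c (fun j => k * g j) p (d1 I Λ) - ((hsn p : ℝ) : ℂ) • d1 I Λ‖ ≤ ε := by
  have h1 : av c (fun j => k * g j) p (d1 I Λ) - ((hsn p : ℝ) : ℂ) • d1 I Λ =
      Lr I k (Rr I k (av c g p (d1 I Λ) - ((hsn p : ℝ) : ℂ) • d1 I Λ)) := by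
    rw [av_LL, mul_ap, mul_ap, Lr_d1, inv_inv, av_eqv c g hp, RrH_apply, map_sub, map_sub,
      map_smul, map_smul]
    congr 2
    rw [← mul_ap, Lr_Rr, mul_ap, Lr_d1, ← mul_ap, ← Rr_mul, mul_inv_cancel, Rr_one]
    rfl
  rw [h1, norm_Lr, norm_Rr]
  exact h

theorem inner_shift (D : Ell2 (I × Λ) →L[ℂ] Ell2 (I × Λ)) {J : Type} [Fintype J] (c : J → ℝ)
    (g : J → Λ) (y z : I × Λ) :
    ⟪(dl y : Ell2 (I × Λ)), av c g D (dl z)⟫_ℂ =
      ⟪d1 I Λ, av c g (Rr I y.2 * D * Rr I z.2⁻¹) (d1 I Λ)⟫_ℂ := by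
  rw [av_RR, mul_ap, mul_ap, dl_eq y, dl_eq z, ← adjoint_inner_right, adjoint_Rr, inv_inv]

theorem tendsto_t {J : Type} [Fintype J] (c : J → ℝ) (g : J → Λ) :
    Tendsto (fun x : Λ × Λ × Λ => ⟪d1 I Λ, av c g (DD T x) (d1 I Λ)⟫_ℂ) cofinite (𝓝 0) := by
  have h1 : ∀ x : Λ × Λ × Λ, ⟪d1 I Λ, av c g (DD T x) (d1 I Λ)⟫_ℂ =
      ∑ j, (c j : ℂ) * ⟪T (Lr I (g j)⁻¹ (d1 I Λ)), r3 I x (T (Lr I (g j)⁻¹ (d1 I Λ)))⟫_ℂ := by
    intro x
    rw [av_apply, inner_sum]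
    refine Finset.sum_congr rfl fun j _ => ?_
    rw [inner_smul_right, ← adjoint_inner_right T]
    have e : adjoint (Lr I (g j)⁻¹) = Lr I (g j) := by rw [adjoint_Lr, inv_inv]
    rw [← e, adjoint_inner_right]
    rfl
  simp only [h1]
  have : Tendsto (fun x : Λ × Λ × Λ => ∑ j, (c j : ℂ) *
      ⟪T (Lr I (g j)⁻¹ (d1 I Λ)), r3 I x (T (Lr I (g j)⁻¹ (d1 I Λ)))⟫_ℂ) cofinite
      (𝓝 (∑ j : J, (c j : ℂ) * 0)) :=
    tendsto_finsetSum _ fun j _ => (r3_tendsto _ _).const_mul _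
  simpa using this

theorem small (ha : AFrame p α) (hT : Itw3 α T)
    (hΛ : ∀ g : Λ, g ≠ 1 → Set.Infinite {y : Λ | ∃ h, y = h * g * h⁻¹})
    {J : Type} [Fintype J] {c : J → ℝ} {g : J → Λ} (hc : ∀ j, 0 ≤ c j) (hc1 : ∑ j, c j = 1)
    {ε : ℝ} (h : ‖av c g p (d1 I Λ) - ((hsn p : ℝ) : ℂ) • d1 I Λ‖ ≤ ε)
    {x : Λ × Λ × Λ} (hx : x ≠ 1) :
    hsn p * ‖⟪d1 I Λ, av c g (DD T x) (d1 I Λ)⟫_ℂ‖ ≤ 2 * ε * ‖T‖ ^ 2 := by
  have hε : 0 ≤ ε := (norm_nonneg _).trans h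
  have hp : Eqv (RrH I Λ) p := by rw [← ha.one]; exact ha.eqv 1
  have hs : 0 ≤ hsn p := hsn_nonneg p
  have key : ∀ k : Λ, hsn p * ‖⟪d1 I Λ, av c g (DD T ((k, k, k) * x * (k⁻¹, k⁻¹, k⁻¹)))
      (d1 I Λ)⟫_ℂ - ⟪d1 I Λ, av c g (DD T x) (d1 I Λ)⟫_ℂ‖ ≤ 2 * ε * ‖T‖ ^ 2 := by
    intro k
    have e1 : ⟪d1 I Λ, av c g (DD T ((k, k, k) * x * (k⁻¹, k⁻¹, k⁻¹))) (d1 I Λ)⟫_ℂ =
        ⟪d1 I Λ, av c (fun j => k⁻¹ * g j) (DD T x) (d1 I Λ)⟫_ℂ := by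
      rw [DD_diag hT, av_LL, inv_inv]
      have e2 := inner_shift (DD T x) c g ((default, k) : I × Λ) ((default, k) : I × Λ)
      rw [← e2, mul_ap, mul_ap, Lr_d1]
      have e3 : adjoint (Lr I k) = Lr I k⁻¹ := adjoint_Lr k
      rw [← e3, adjoint_inner_right, Lr_d1, dl_eq]
    rw [e1]
    refine (cmp ha.p_adj (DD_InD ha hT x) hc hc1 hc hc1 (good_translate hp h k⁻¹) h).trans ?_
    have := norm_DD_le (T := T) x
    gcongr
  -- the orbit is infinite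
  have horb : Set.Infinite {y : Λ × Λ × Λ | ∃ k : Λ, y = (k, k, k) * x * (k⁻¹, k⁻¹, k⁻¹)} := by
    obtain ⟨x1, x2, x3⟩ := x
    by_cases h1 : x1 = 1
    · by_cases h2 : x2 = 1
      · have h3 : x3 ≠ 1 := by
          rintro rfl
          exact hx (by rw [h1, h2]; rfl)
        refine fun hf => hΛ x3 h3 ((hf.image fun y => y.2.2).subset ?_)
        rintro _ ⟨k, rfl⟩
        exact ⟨_, ⟨k, rfl⟩, rfl⟩
      · refine fun hf => hΛ x2 h2 ((hf.image fun y => y.2.1).subset ?_)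
        rintro _ ⟨k, rfl⟩
        exact ⟨_, ⟨k, rfl⟩, rfl⟩
    · refine fun hf => hΛ x1 h1 ((hf.image fun y => y.1).subset ?_)
      rintro _ ⟨k, rfl⟩
      exact ⟨_, ⟨k, rfl⟩, rfl⟩
  refine le_of_forall_pos_le_add fun δ hδ => ?_
  obtain ⟨η, hη⟩ : ∃ η : ℝ, η = δ / (hsn p + 1) := ⟨_, rfl⟩
  have hη0 : 0 < η := by rw [hη]; positivity
  have hηδ : hsn p * η ≤ δ := by
    rw [hη, mul_div_assoc', div_le_iff₀ (by positivity)]
    nlinarith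
  have h1 := (Metric.tendsto_nhds.mp (tendsto_t (I := I) (T := T) c g)) η hη0
  rw [Filter.eventually_cofinite] at h1
  obtain ⟨y, hy, hy2⟩ := horb.exists_notMem_finite h1
  obtain ⟨k, rfl⟩ := hy
  have h2 : ‖⟪d1 I Λ, av c g (DD T ((k, k, k) * x * (k⁻¹, k⁻¹, k⁻¹))) (d1 I Λ)⟫_ℂ‖ < η := by
    by_contra h3
    refine hy2 ?_
    rw [Set.mem_setOf_eq, dist_zero_right]
    exact h3
  have h3 := key k
  have h4 : ‖⟪d1 I Λ, av c g (DD T x) (d1 I Λ)⟫_ℂ‖ ≤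
      ‖⟪d1 I Λ, av c g (DD T ((k, k, k) * x * (k⁻¹, k⁻¹, k⁻¹))) (d1 I Λ)⟫_ℂ‖ +
      ‖⟪d1 I Λ, av c g (DD T ((k, k, k) * x * (k⁻¹, k⁻¹, k⁻¹)))
      (d1 I Λ)⟫_ℂ - ⟪d1 I Λ, av c g (DD T x) (d1 I Λ)⟫_ℂ‖ := by
    rw [norm_sub_rev]
    have := norm_add_le ⟪d1 I Λ, av c g (DD T ((k, k, k) * x * (k⁻¹, k⁻¹, k⁻¹))) (d1 I Λ)⟫_ℂ
      (⟪d1 I Λ, av c g (DD T x) (d1 I Λ)⟫_ℂ -
      ⟪d1 I Λ, av c g (DD T ((k, k, k) * x * (k⁻¹, k⁻¹, k⁻¹))) (d1 I Λ)⟫_ℂ)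
    rw [add_sub_cancel] at this
    exact this
  calc hsn p * ‖⟪d1 I Λ, av c g (DD T x) (d1 I Λ)⟫_ℂ‖ ≤ hsn p * (η + ‖⟪d1 I Λ, av c g
        (DD T ((k, k, k) * x * (k⁻¹, k⁻¹, k⁻¹))) (d1 I Λ)⟫_ℂ -
        ⟪d1 I Λ, av c g (DD T x) (d1 I Λ)⟫_ℂ‖) := by
        gcongr
        exact h4.trans (by gcongr)
    _ ≤ _ := by
        rw [mul_add]
        linarith

theorem le_of_eps {A B M : ℝ} (hM : 0 ≤ M) (h : ∀ ε > 0, A ≤ B + ε * M) : A ≤ B := by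
  refine le_of_forall_pos_le_add fun δ hδ => ?_
  refine (h (δ / (M + 1)) (by positivity)).trans ?_
  have : δ / (M + 1) * M ≤ δ := by
    rw [div_mul_eq_mul_div, div_le_iff₀ (by positivity)]
    nlinarith
  linarith

theorem hsn_p_pos (ha : AFrame p α) : 0 < hsn p := by
  have hp : Eqv (RrH I Λ) p := by rw [← ha.one]; exact ha.eqv 1
  refine lt_of_le_of_ne (hsn_nonneg p) fun h => ha.p_ne ?_
  exact hsn_eq_zero hp h.symm

theorem off_zero (ha : AFrame p α) (hT : Itw3 α T)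
    (hΛ : ∀ g : Λ, g ≠ 1 → Set.Infinite {y : Λ | ∃ h, y = h * g * h⁻¹})
    {x : Λ × Λ × Λ} (hx : ∀ s, x ≠ (s, s, s)) : DD T x = 0 := by
  have hs := hsn_p_pos ha
  have hp : Eqv (RrH I Λ) p := by rw [← ha.one]; exact ha.eqv 1
  have hD := DD_InD ha hT x
  apply op_ext
  intro z
  apply ext_inner_dl
  intro y
  rw [← inner_dl, ← inner_dl]
  change ⟪(dl y : Ell2 (I × Λ)), DD T x (dl z)⟫_ℂ = ⟪(dl y : Ell2 (I × Λ)), (0 : Ell2 (I × Λ))⟫_ℂ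
  rw [inner_zero_right, ← norm_eq_zero]
  obtain ⟨q, hq⟩ : ∃ q, q = ‖⟪(dl y : Ell2 (I × Λ)), DD T x (dl z)⟫_ℂ‖ := ⟨_, rfl⟩
  have hq0 : 0 ≤ q := by rw [hq]; exact norm_nonneg _
  rw [← hq]
  have c1 : hsn p * (hsn p * q) ≤ 0 := by
    refine le_of_eps (M := hsn p * ‖DD T x‖) (by positivity) fun η hη => ?_
    obtain ⟨v, hv⟩ : ∃ v, v = p (dl z) := ⟨_, rfl⟩
    obtain ⟨F, hF⟩ := ((hasSum_dl v).eventually (Metric.ball_mem_nhds v hη)).exists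
    rw [dist_comm, dist_eq_norm] at hF
    obtain ⟨K, hK⟩ : ∃ K : ℝ, K = ∑ u ∈ F, ‖v u‖ := ⟨_, rfl⟩
    have hK0 : 0 ≤ K := by rw [hK]; exact Finset.sum_nonneg fun _ _ => norm_nonneg _
    refine le_of_eps (M := hsn p * ‖DD T x‖ + 2 * K * ‖T‖ ^ 2) (by positivity) fun ε hε => ?_
    obtain ⟨J, hJ, c, g, hc0, hc1, hw⟩ := exists_weights hp ha.p_adj ha.p_idem hΛ hε
    have h1 : ⟪av c g p (dl y), DD T x (dl z)⟫_ℂ = ⟪(dl y : Ell2 (I × Λ)), av c g (DD T x) v⟫_ℂ := by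
      rw [hv, ← mul_ap (av c g (DD T x)) p, ← av_key' hD, mul_ap]
      conv_lhs => rw [← adjoint_av c g ha.p_adj]
      rw [adjoint_inner_left]
    have h2 : ‖av c g p (dl y) - ((hsn p : ℝ) : ℂ) • (dl y : Ell2 (I × Λ))‖ ≤ ε := by
      rw [dl_eq y, av_eqv c g hp, RrH_apply, ← map_smul, ← map_sub, norm_Rr]
      exact hw
    have h3 : ((hsn p : ℝ) : ℂ) * ⟪(dl y : Ell2 (I × Λ)), DD T x (dl z)⟫_ℂ =
        ⟪(dl y : Ell2 (I × Λ)), av c g (DD T x) v⟫_ℂ -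
        ⟪av c g p (dl y) - ((hsn p : ℝ) : ℂ) • (dl y : Ell2 (I × Λ)), DD T x (dl z)⟫_ℂ := by
      rw [← h1, inner_sub_left, inner_smul_left, Complex.conj_ofReal]
      ring
    have h4 : hsn p * q ≤ ‖⟪(dl y : Ell2 (I × Λ)), av c g (DD T x) v⟫_ℂ‖ + ε * ‖DD T x‖ := by
      have h5 := congrArg norm h3
      rw [norm_mul, Complex.norm_real, Real.norm_of_nonneg hs.le, ← hq] at h5
      rw [h5]
      refine (norm_sub_le _ _).trans ?_
      have h6 : ‖⟪av c g p (dl y) - ((hsn p : ℝ) : ℂ) • (dl y : Ell2 (I × Λ)), DD T x (dl z)⟫_ℂ‖ ≤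
          ε * ‖DD T x‖ := by
        refine (norm_inner_le_norm _ _).trans ?_
        have h7 : ‖DD T x (dl z)‖ ≤ ‖DD T x‖ := by
          refine ((DD T x).le_opNorm _).trans ?_
          rw [norm_dl, mul_one]
        gcongr
      gcongr
    have h5 : ∀ u : I × Λ, hsn p * ‖⟪(dl y : Ell2 (I × Λ)), av c g (DD T x) (dl u)⟫_ℂ‖ ≤
        2 * ε * ‖T‖ ^ 2 := by
      intro u
      rw [inner_shift, ← DD_diag hT]
      refine small ha hT hΛ hc0 hc1 hw fun h => ?_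
      obtain ⟨x1, x2, x3⟩ := x
      have e1 : y.2 * x1 * u.2⁻¹ = 1 := congrArg (fun w : Λ × Λ × Λ => w.1) h
      have e2 : y.2 * x2 * u.2⁻¹ = 1 := congrArg (fun w : Λ × Λ × Λ => w.2.1) h
      have e3 : y.2 * x3 * u.2⁻¹ = 1 := congrArg (fun w : Λ × Λ × Λ => w.2.2) h
      refine hx x1 ?_
      have e4 : x2 = x1 := by
        have := e2.trans e1.symm
        exact mul_left_cancel (mul_right_cancel this)
      have e5 : x3 = x1 := by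
        have := e3.trans e1.symm
        exact mul_left_cancel (mul_right_cancel this)
      rw [e4, e5]
    have h6 : ⟪(dl y : Ell2 (I × Λ)), av c g (DD T x) v⟫_ℂ =
        ⟪(dl y : Ell2 (I × Λ)), av c g (DD T x) (v - ∑ u ∈ F, v u • dl u)⟫_ℂ +
        ∑ u ∈ F, v u * ⟪(dl y : Ell2 (I × Λ)), av c g (DD T x) (dl u)⟫_ℂ := by
      rw [map_sub, inner_sub_right, map_sum, inner_sum]
      have : ∀ u ∈ F, ⟪(dl y : Ell2 (I × Λ)), av c g (DD T x) (v u • dl u)⟫_ℂ =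
          v u * ⟪(dl y : Ell2 (I × Λ)), av c g (DD T x) (dl u)⟫_ℂ := by
        intro u _
        rw [map_smul, inner_smul_right]
      rw [Finset.sum_congr rfl this]
      ring
    have h7 : ‖⟪(dl y : Ell2 (I × Λ)), av c g (DD T x) (v - ∑ u ∈ F, v u • dl u)⟫_ℂ‖ ≤
        ‖DD T x‖ * η := by
      refine (norm_inner_le_norm _ _).trans ?_
      rw [norm_dl, one_mul]
      refine ((av c g (DD T x)).le_opNorm _).trans ?_
      have := norm_av_le hc0 hc1 g (DD T x)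
      have := hF.le
      gcongr
    have h8 : hsn p * ‖∑ u ∈ F, v u * ⟪(dl y : Ell2 (I × Λ)), av c g (DD T x) (dl u)⟫_ℂ‖ ≤
        K * (2 * ε * ‖T‖ ^ 2) := by
      calc _ ≤ hsn p * ∑ u ∈ F, ‖v u * ⟪(dl y : Ell2 (I × Λ)), av c g (DD T x) (dl u)⟫_ℂ‖ := by
            gcongr
            exact norm_sum_le _ _
        _ = ∑ u ∈ F, ‖v u‖ * (hsn p *
            ‖⟪(dl y : Ell2 (I × Λ)), av c g (DD T x) (dl u)⟫_ℂ‖) := by
            rw [Finset.mul_sum]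
            refine Finset.sum_congr rfl fun u _ => ?_
            rw [norm_mul]
            ring
        _ ≤ ∑ u ∈ F, ‖v u‖ * (2 * ε * ‖T‖ ^ 2) :=
            Finset.sum_le_sum fun u _ => mul_le_mul_of_nonneg_left (h5 u) (norm_nonneg _)
        _ = _ := by rw [hK, Finset.sum_mul]
    have h9 : hsn p * ‖⟪(dl y : Ell2 (I × Λ)), av c g (DD T x) v⟫_ℂ‖ ≤
        hsn p * (‖DD T x‖ * η) + K * (2 * ε * ‖T‖ ^ 2) := by
      rw [h6]
      calc _ ≤ hsn p * (‖⟪(dl y : Ell2 (I × Λ)), av c g (DD T x)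
            (v - ∑ u ∈ F, v u • dl u)⟫_ℂ‖ +
            ‖∑ u ∈ F, v u * ⟪(dl y : Ell2 (I × Λ)), av c g (DD T x) (dl u)⟫_ℂ‖) := by
            gcongr
            exact norm_add_le _ _
        _ ≤ _ := by
            rw [mul_add]
            gcongr
    have h10 := mul_le_mul_of_nonneg_left h4 hs.le
    rw [mul_add] at h10
    nlinarith
  have c2 : 0 < hsn p * hsn p := by positivity
  have c3 : hsn p * hsn p * q ≤ 0 := by rw [mul_assoc]; exact c1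
  refine le_antisymm ?_ hq0
  by_contra h
  push Not at h
  have := mul_pos c2 h
  linarith

end main

/-! ### Bessel's inequality for orthogonal ranges -/

section bessel

variable {H K : Type} [NormedAddCommGroup H] [InnerProductSpace ℂ H] [CompleteSpace H]
  [NormedAddCommGroup K] [InnerProductSpace ℂ K] [CompleteSpace K]

theorem bessel_ranges {Z : Type} (F : Finset Z) (U : Z → (H →L[ℂ] K)) (p : H →L[ℂ] H) (b : ℝ)
    (hb : 0 ≤ b) (h0 : ∀ z z', z ≠ z' → adjoint (U z) ∘L U z' = 0)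
    (h1 : ∀ z, adjoint (U z) ∘L U z = (b : ℂ) • p)
    (h2 : ∀ z, p ∘L adjoint (U z) = adjoint (U z)) (w : K) :
    ∑ z ∈ F, ‖adjoint (U z) w‖ ^ 2 ≤ b * ‖w‖ ^ 2 := by
  classical
  obtain ⟨A, hA⟩ : ∃ A : ℝ, A = ∑ z ∈ F, ‖adjoint (U z) w‖ ^ 2 := ⟨_, rfl⟩
  obtain ⟨v, hv⟩ : ∃ v : K, v = ∑ z ∈ F, U z (adjoint (U z) w) := ⟨_, rfl⟩
  have hA0 : 0 ≤ A := by rw [hA]; exact Finset.sum_nonneg fun _ _ => by positivity
  have e1 : ⟪w, v⟫_ℂ = (A : ℂ) := by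
    rw [hv, inner_sum, hA, Complex.ofReal_sum]
    refine Finset.sum_congr rfl fun z _ => ?_
    rw [← adjoint_inner_left, inner_self_eq_norm_sq_to_K]
    push_cast
    rfl
  have e2 : ⟪v, v⟫_ℂ = ((b * A : ℝ) : ℂ) := by
    rw [hv, sum_inner, hA, Complex.ofReal_mul, Complex.ofReal_sum, Finset.mul_sum]
    refine Finset.sum_congr rfl fun z hz => ?_
    rw [inner_sum, Finset.sum_eq_single_of_mem z hz]
    · rw [← adjoint_inner_right]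
      have : adjoint (U z) (U z (adjoint (U z) w)) = (b : ℂ) • adjoint (U z) w := by
        calc adjoint (U z) (U z (adjoint (U z) w)) =
            (adjoint (U z) ∘L U z) (adjoint (U z) w) := rfl
          _ = (b : ℂ) • ((p ∘L adjoint (U z)) w) := by rw [h1]; rfl
          _ = _ := by rw [h2]
      rw [this, inner_smul_right, inner_self_eq_norm_sq_to_K]
      push_cast
      rfl
    · intro z' _ hne
      rw [← adjoint_inner_right]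
      have : adjoint (U z) (U z' (adjoint (U z') w)) = 0 := by
        calc adjoint (U z) (U z' (adjoint (U z') w)) =
            (adjoint (U z) ∘L U z') (adjoint (U z') w) := rfl
          _ = 0 := by rw [h0 z z' hne.symm]; rfl
      rw [this, inner_zero_right]
  have e3 : ‖v‖ ^ 2 = b * A := by
    have e3' : ((‖v‖ ^ 2 : ℝ) : ℂ) = ((b * A : ℝ) : ℂ) := by
      rw [← e2, inner_self_eq_norm_sq_to_K]
      push_cast
      rfl
    exact Complex.ofReal_injective e3'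
  have e4 : A ≤ ‖w‖ * ‖v‖ := by
    have := norm_inner_le_norm (𝕜 := ℂ) w v
    rw [e1, Complex.norm_real, Real.norm_of_nonneg hA0] at this
    exact this
  rw [← hA]
  rcases hA0.eq_or_lt with h | h
  · rw [← h]
    positivity
  · have e5 : A * A ≤ (‖w‖ * ‖v‖) * (‖w‖ * ‖v‖) := by gcongr
    have e6 : (‖w‖ * ‖v‖) * (‖w‖ * ‖v‖) = (b * ‖w‖ ^ 2) * A := by
      calc (‖w‖ * ‖v‖) * (‖w‖ * ‖v‖) = ‖w‖ ^ 2 * ‖v‖ ^ 2 := by ring
        _ = _ := by rw [e3]; ring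
    rw [e6] at e5
    exact le_of_mul_le_mul_right e5 h

end bessel

section final

variable {I Λ Γ : Type} [Fintype I] [Unique I] [Group Λ] [Group Γ]
  {p : Ell2 (I × Λ) →L[ℂ] Ell2 (I × Λ)} {α : Γ → (Ell2 (I × Λ) →L[ℂ] Ell2 (I × Λ))}
  {T : Ell2 (I × Λ) →L[ℂ] Ell2 ((I × Λ) × (I × Λ) × (I × Λ))}

/-- The reindexing of the cube. -/
def eqq (I Λ : Type) [Unique I] [Group Λ] :
    ((Λ × Λ) × Λ) ≃ ((I × Λ) × (I × Λ) × (I × Λ)) where
  toFun u := ((default, u.1.1 * u.2⁻¹), (default, u.1.2 * u.2⁻¹), (default, u.2⁻¹))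
  invFun q := ((q.1.2 * q.2.2.2⁻¹, q.2.1.2 * q.2.2.2⁻¹), q.2.2.2⁻¹)
  left_inv u := by
    obtain ⟨⟨x, y⟩, c⟩ := u
    simp
  right_inv q := by
    obtain ⟨⟨i, a⟩, ⟨j, b⟩, ⟨k, c⟩⟩ := q
    simp only [inv_inv, inv_mul_cancel_right, Prod.mk.injEq, and_true]
    exact ⟨(Unique.eq_default i).symm, (Unique.eq_default j).symm, (Unique.eq_default k).symm⟩

theorem hasSum_main (hT : Itw3 α T) : HasSum (fun z : Λ × Λ => ‖adjoint T
    (dl ((default, z.1), (default, z.2), (default, 1)))‖ ^ 2) (‖T (d1 I Λ)‖ ^ 2) := by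
  have h1 : HasSum (fun q => ‖(T (d1 I Λ)) q‖ ^ 2) (‖T (d1 I Λ)‖ ^ 2) := by
    rw [norm_sq]
    exact (summable_sq _).hasSum
  have h2 := (eqq I Λ).hasSum_iff.mpr h1
  refine h2.prod_fiberwise fun z => ?_
  obtain ⟨x, y⟩ := z
  have h3 : HasSum (fun u : I × Λ => ‖(adjoint T
      (dl ((default, x), (default, y), (default, 1)))) u‖ ^ 2)
      (‖adjoint T (dl ((default, x), (default, y), (default, 1)))‖ ^ 2) := by
    rw [norm_sq]
    exact (summable_sq _).hasSum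
  have h4 := (Equiv.uniqueProd Λ I).symm.hasSum_iff.mpr h3
  convert h4 using 1
  funext c
  change ‖(T (d1 I Λ)) ((default, x * c⁻¹), (default, y * c⁻¹), (default, c⁻¹))‖ ^ 2 =
    ‖(adjoint T (dl ((default, x), (default, y), (default, 1)))) (default, c)‖ ^ 2
  have e1 : (adjoint T (dl ((default, x), (default, y), (default, 1)))) (default, c) =
      (starRingEnd ℂ) ((T (d1 I Λ)) ((default, x * c⁻¹), (default, y * c⁻¹), (default, c⁻¹))) := by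
    rw [← inner_dl, adjoint_inner_right, ← inner_conj_symm]
    congr 1
    have e2 : T (dl (default, c)) = r3 I (c⁻¹, c⁻¹, c⁻¹) (T (d1 I Λ)) := by
      rw [dl_eq_Rr, hT.eqv]
      rfl
    have e3 : adjoint (r3 I (c, c, c)) = r3 I (c⁻¹, c⁻¹, c⁻¹) := adjoint_r3 _
    rw [e2, ← e3, adjoint_inner_right, r3_dl, inner_dl, one_mul]
  rw [e1, RCLike.norm_conj]

theorem norm_w (p : Ell2 (I × Λ) →L[ℂ] Ell2 (I × Λ)) :
    ‖tens p (tens (bar p) p) (dl ((default, 1), (default, 1), (default, 1)))‖ ^ 2 =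
      hsn p ^ 3 := by
  rw [tens_dl, tens_dl, norm_tv, norm_tv, bar_dl, norm_cj, hsn_eq]
  change (‖p (d1 I Λ)‖ * (‖p (d1 I Λ)‖ * ‖p (d1 I Λ)‖)) ^ 2 = _
  ring

theorem one_le_hsn_aux (ha : AFrame p α) (hT : Itw3 α T)
    (hΛ : ∀ g : Λ, g ≠ 1 → Set.Infinite {y : Λ | ∃ h, y = h * g * h⁻¹}) {b : ℝ} (hb : 0 < b)
    (hTT : adjoint T ∘L T = (b : ℂ) • p) : 1 ≤ hsn p := by
  have hs := hsn_p_pos ha
  obtain ⟨w, hw⟩ : ∃ w : Ell2 ((I × Λ) × (I × Λ) × (I × Λ)),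
    w = A3 α (1, 1, 1) (dl ((default, 1), (default, 1), (default, 1))) := ⟨_, rfl⟩
  have hwn : ‖w‖ ^ 2 = hsn p ^ 3 := by
    rw [hw, A3]
    simp only [ha.one]
    exact norm_w p
  obtain ⟨U, hU⟩ : ∃ U : Λ × Λ → (Ell2 (I × Λ) →L[ℂ] Ell2 ((I × Λ) × (I × Λ) × (I × Λ))),
    U = fun z => r3 I (z.1, z.2, 1) ∘L T := ⟨_, rfl⟩
  have hUU : ∀ z z', adjoint (U z) ∘L U z' = DD T (z.1⁻¹ * z'.1, z.2⁻¹ * z'.2, 1) := by
    intro z z'
    rw [hU]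
    change adjoint (r3 I (z.1, z.2, 1) ∘L T) ∘L (r3 I (z'.1, z'.2, 1) ∘L T) = _
    rw [adjoint_comp, adjoint_r3]
    have e : ((z.1⁻¹ * z'.1, z.2⁻¹ * z'.2, 1) : Λ × Λ × Λ) =
        (z.1, z.2, 1)⁻¹ * (z'.1, z'.2, 1) := by
      rw [Prod.inv_mk, Prod.inv_mk, inv_one, Prod.mk_mul_mk, Prod.mk_mul_mk, mul_one]
    rw [e, DD, r3_mul]
    rfl
  have hUw : ∀ z, adjoint (U z) w = adjoint T
      (dl ((default, z.1), (default, z.2), (default, 1))) := by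
    intro z
    rw [hU, hw]
    change adjoint (r3 I (z.1, z.2, 1) ∘L T) _ = _
    rw [adjoint_comp, adjoint_r3]
    have e : (z.1, z.2, 1)⁻¹ = ((z.1⁻¹, z.2⁻¹, 1) : Λ × Λ × Λ) := by
      rw [Prod.inv_mk, Prod.inv_mk, inv_one]
    rw [e]
    calc (adjoint T ∘L r3 I (z.1⁻¹, z.2⁻¹, 1)) (A3 α (1, 1, 1)
          (dl ((default, 1), (default, 1), (default, 1))))
        = adjoint T ((r3 I (z.1⁻¹, z.2⁻¹, 1) * A3 α (1, 1, 1))
          (dl ((default, 1), (default, 1), (default, 1)))) := rfl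
      _ = adjoint T ((A3 α (1, 1, 1) * r3 I (z.1⁻¹, z.2⁻¹, 1))
          (dl ((default, 1), (default, 1), (default, 1)))) := by rw [A3_r3 ha]
      _ = (adjoint T ∘L A3 α (1, 1, 1)) (r3 I (z.1⁻¹, z.2⁻¹, 1)
          (dl ((default, 1), (default, 1), (default, 1)))) := rfl
      _ = (p ∘L adjoint T) (r3 I (z.1⁻¹, z.2⁻¹, 1)
          (dl ((default, 1), (default, 1), (default, 1)))) := by
          rw [alpha_T ha hT, ha.one]
      _ = adjoint T (r3 I (z.1⁻¹, z.2⁻¹, 1)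
          (dl ((default, 1), (default, 1), (default, 1)))) := by
          have h := congrArg adjoint (T_p ha hT)
          rw [adjoint_comp, ha.p_adj] at h
          rw [h]
      _ = _ := by rw [r3_dl, inv_inv, inv_inv, inv_one, one_mul, one_mul, one_mul]
  have hpT : p ∘L adjoint T = adjoint T := by
    have h := congrArg adjoint (T_p ha hT)
    rw [adjoint_comp, ha.p_adj] at h
    exact h
  have hbes : ∀ F : Finset (Λ × Λ), ∑ z ∈ F, ‖adjoint T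
      (dl ((default, z.1), (default, z.2), (default, 1)))‖ ^ 2 ≤ b * hsn p ^ 3 := by
    intro F
    have h := bessel_ranges F U p b hb.le ?_ ?_ ?_ w
    · rw [hwn] at h
      refine le_trans (le_of_eq ?_) h
      refine Finset.sum_congr rfl fun z _ => ?_
      rw [hUw]
    · intro z z' hne
      rw [hUU]
      refine off_zero ha hT hΛ fun s hs => hne ?_
      have e3 : (1 : Λ) = s := congrArg (fun w : Λ × Λ × Λ => w.2.2) hs
      have e1 : z.1⁻¹ * z'.1 = s := congrArg (fun w : Λ × Λ × Λ => w.1) hs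
      have e2 : z.2⁻¹ * z'.2 = s := congrArg (fun w : Λ × Λ × Λ => w.2.1) hs
      rw [← e3, inv_mul_eq_one] at e1 e2
      exact Prod.ext e1 e2
    · intro z
      rw [hUU, inv_mul_cancel, inv_mul_cancel, ← hTT, DD]
      have : r3 I ((1, 1, 1) : Λ × Λ × Λ) = 1 := r3_one
      rw [this]
      rfl
    · intro z
      rw [hU]
      change p ∘L adjoint (r3 I (z.1, z.2, 1) ∘L T) = adjoint (r3 I (z.1, z.2, 1) ∘L T)
      rw [adjoint_comp, ← ContinuousLinearMap.comp_assoc, hpT]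
  have h1 : ‖T (d1 I Λ)‖ ^ 2 ≤ b * hsn p ^ 3 := hasSum_le_of_sum_le (hasSum_main hT) hbes
  have h2 : ‖T (d1 I Λ)‖ ^ 2 = b * hsn p := by
    have e1 : ⟪T (d1 I Λ), T (d1 I Λ)⟫_ℂ = ((b * hsn p : ℝ) : ℂ) := by
      rw [← adjoint_inner_right]
      change ⟪d1 I Λ, (adjoint T ∘L T) (d1 I Λ)⟫_ℂ = _
      rw [hTT]
      change ⟪d1 I Λ, (b : ℂ) • p (d1 I Λ)⟫_ℂ = _
      rw [inner_smul_right, inner_p ha.p_adj ha.p_idem, Complex.ofReal_mul]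
    have e2 : ((‖T (d1 I Λ)‖ ^ 2 : ℝ) : ℂ) = ((b * hsn p : ℝ) : ℂ) := by
      rw [← e1, inner_self_eq_norm_sq_to_K]
      push_cast
      rfl
    exact Complex.ofReal_injective e2
  rw [h2] at h1
  have h3 := le_of_mul_le_mul_left h1 hb
  by_contra hlt
  push Not at hlt
  have h4 : hsn p ^ 2 < 1 := by nlinarith
  have h5 : hsn p ^ 3 = hsn p * hsn p ^ 2 := by ring
  nlinarith

end final

end L547

end Vale.Agent.P092.H367
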