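import Vale.Agent.P092.R3.H547.Dim

/-!
The dimension bound: a family of cubic operators all of whose translates are orthonormal has at
most `1 / (Tr p)²` members.
-/

set_option linter.all false

open scoped InnerProductSpace
open Filter Topology ContinuousLinearMap

namespace Vale.Agent.P092.H547

open Vale.Agent.P092.H160 Vale.Agent.P092.H367 Vale.Agent.P092.H781

variable {I Λ Γ : Type} [Fintype I] [Group Λ] [Group Γ]
  {p : Ell2 (I × Λ) →L[ℂ] Ell2 (I × Λ)} {α : Γ → (Ell2 (I × Λ) →L[ℂ] Ell2 (I × Λ))}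
  {κ : Type} [Fintype κ] {v : κ → (Ell2 (Unit × Λ) →L[ℂ] Ell2 (I × Λ))}
  {J : Type} [Fintype J] [DecidableEq J]
  {X : J → (Ell2 (I × Λ) →L[ℂ] Ell2 ((I × Λ) × (I × Λ) × (I × Λ)))}

/-- The translates. -/
noncomputable def tr3 (α : Γ → (Ell2 (I × Λ) →L[ℂ] Ell2 (I × Λ)))
    (X : J → (Ell2 (I × Λ) →L[ℂ] Ell2 ((I × Λ) × (I × Λ) × (I × Λ)))) (e : J × (Γ × Γ × Γ)) :
    PiLp 2 (fun _ : I => Ell2 ((I × Λ) × (I × Λ) × (I × Λ))) :=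
  H781.vec (H367.A3 α e.2⁻¹ ∘L X e.1)

theorem inner_tr3 (ha : AFrame p α) (e f : J × (Γ × Γ × Γ)) :
    ⟪tr3 α X e, tr3 α X f⟫_ℂ = hs (X e.1) (H367.A3 α (e.2 * f.2⁻¹) ∘L X f.1) := by
  rw [tr3, tr3, H781.inner_vec]
  unfold hs
  refine Finset.sum_congr rfl fun i _ => ?_
  change ⟪H367.A3 α e.2⁻¹ (X e.1 (dl (i, 1))), H367.A3 α f.2⁻¹ (X f.1 (dl (i, 1)))⟫_ℂ =
    ⟪X e.1 (dl (i, 1)), H367.A3 α (e.2 * f.2⁻¹) (X f.1 (dl (i, 1)))⟫_ℂ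
  rw [← adjoint_inner_right, ha.A3_adj, inv_inv, ← mul_ap, ha.A3_mul]

theorem orth_tr3 (ha : AFrame p α) (h1 : ∀ j, H367.A3 α 1 ∘L X j = X j)
    (h0 : ∀ a b y, (a ≠ b ∨ y ≠ 1) → hs (X a) (H367.A3 α y ∘L X b) = 0)
    (hn : ∀ a, hsn (X a) = 1) : Orthonormal ℂ (tr3 α X) := by
  classical
  rw [orthonormal_iff_ite]
  intro e f
  rw [inner_tr3 ha]
  by_cases hef : e = f
  · subst hef
    rw [if_pos rfl, mul_inv_cancel, h1, hs_self, hn]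
    rfl
  · rw [if_neg hef]
    refine h0 _ _ _ ?_
    by_cases h2 : e.1 = f.1
    · right
      intro h3
      exact hef (Prod.ext h2 (mul_inv_eq_one.mp h3))
    · exact Or.inl h2

theorem adj_VV3_apply (ha : AFrame p α) (hv : ∀ j, Eqv (RrH I Λ) (v j))
    (hvv : ∑ j, adjoint (v j) ∘L v j = 1) (hE : ∀ j, Eqv (R3H I Λ) (X j))
    (hp : ∀ j, X j ∘L p = X j) (i : I) (j : κ × κ × κ) (l : J) (y : Γ × Γ × Γ) :
    (adjoint (VV3 ha hv hvv j) (X l (dl (i, 1)))) y =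
      ⟪H781.vec (Z3 v i j ∘L p), tr3 α X (l, y)⟫_ℂ := by
  have hX : Eqv (R3H I Λ) (H367.A3 α y⁻¹ ∘L X l) := (hE l).left (ha.A3_R3 y⁻¹)
  have h1 := hs_rect adjoint_R3 (Z3_eqv hv i j) hX (p_eqv ha)
  have h2 : (H367.A3 α y⁻¹ ∘L X l) ∘L p = H367.A3 α y⁻¹ ∘L X l := by
    change H367.A3 α y⁻¹ ∘L (X l ∘L p) = _
    rw [hp]
  rw [h2, ha.p_adj] at h1
  rw [← inner_dl, adjoint_inner_right, VV3_dl, coeff3 ha hv i j (hE l) y, tr3, H781.inner_vec,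
    h1]

theorem bessel3 (ha : AFrame p α) (hv : ∀ j, Eqv (RrH I Λ) (v j))
    (hvv : ∑ j, adjoint (v j) ∘L v j = 1) (hE : ∀ j, Eqv (R3H I Λ) (X j))
    (hp : ∀ j, X j ∘L p = X j) (h1 : ∀ j, H367.A3 α 1 ∘L X j = X j)
    (h0 : ∀ a b y, (a ≠ b ∨ y ≠ 1) → hs (X a) (H367.A3 α y ∘L X b) = 0)
    (hn : ∀ a, hsn (X a) = 1) (i : I) (j : κ × κ × κ) :
    ∑ l, ‖adjoint (VV3 ha hv hvv j) (X l (dl (i, 1)))‖ ^ 2 ≤ hsn (Z3 v i j ∘L p) := by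
  have hs1 : HasSum (fun y => ∑ l, ‖(adjoint (VV3 ha hv hvv j) (X l (dl (i, 1)))) y‖ ^ 2)
      (∑ l, ‖adjoint (VV3 ha hv hvv j) (X l (dl (i, 1)))‖ ^ 2) := by
    refine hasSum_sum fun l _ => ?_
    rw [norm_sq]
    exact (summable_sq _).hasSum
  refine hasSum_le_of_sum_le hs1 fun F => ?_
  rw [← H781.norm_vec]
  refine le_trans (le_of_eq ?_)
    ((orth_tr3 ha h1 h0 hn).sum_inner_products_le (x := H781.vec (Z3 v i j ∘L p))
      (s := (Finset.univ : Finset J) ×ˢ F))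
  rw [Finset.sum_product, Finset.sum_comm]
  refine Finset.sum_congr rfl fun l _ => Finset.sum_congr rfl fun y _ => ?_
  rw [adj_VV3_apply ha hv hvv hE hp, ← inner_conj_symm, RCLike.norm_conj]

theorem sum_Z3 (hvv : ∑ j, adjoint (v j) ∘L v j = 1) :
    ∑ i : I, ∑ j : κ × κ × κ, hsn (Z3 v i j ∘L p) = hsn p := by
  have h1 : ∀ i : I, ∑ j : κ × κ × κ, hsn (Z3 v i j ∘L p) =
      ∑ i', ‖adjoint (L547.xi Λ i) (p (dl (i', 1)))‖ ^ 2 := by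
    intro i
    unfold hsn
    rw [Finset.sum_comm]
    refine Finset.sum_congr rfl fun i' _ => ?_
    have h2 := sum_norm (sum_W3 hvv) (D0 (Unit × Λ) (adjoint (L547.xi Λ i) (p (dl (i', 1)))))
    rw [norm_D0] at h2
    exact h2
  rw [Finset.sum_congr rfl fun i _ => h1 i, Finset.sum_comm]
  unfold hsn
  exact Finset.sum_congr rfl fun i' _ => sum_norm sum_xi (p (dl (i', 1)))

theorem dim_bound (ha : AFrame p α) {κ : Type} [Fintype κ]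
    (v : κ → (Ell2 (Unit × Λ) →L[ℂ] Ell2 (I × Λ))) (hv : ∀ j, Eqv (RrH I Λ) (v j))
    (hpv : ∀ j, p ∘L v j = v j) (hvv : ∑ j, adjoint (v j) ∘L v j = 1)
    {J : Type} [Fintype J] [DecidableEq J]
    (X : J → (Ell2 (I × Λ) →L[ℂ] Ell2 ((I × Λ) × (I × Λ) × (I × Λ))))
    (hE : ∀ j, Eqv (R3H I Λ) (X j)) (hp : ∀ j, X j ∘L p = X j)
    (h1 : ∀ j, H367.A3 α 1 ∘L X j = X j)
    (h0 : ∀ a b y, (a ≠ b ∨ y ≠ 1) → hs (X a) (H367.A3 α y ∘L X b) = 0)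
    (hn : ∀ a, hsn (X a) = 1) : (Fintype.card J : ℝ) * hsn p ^ 2 ≤ 1 := by
  have ht : 0 < hsn p := s_pos ha
  have hB : ∑ i : I, ∑ j : κ × κ × κ, ∑ l, ‖adjoint (VV3 ha hv hvv j) (X l (dl (i, 1)))‖ ^ 2 ≤
      hsn p := by
    rw [← sum_Z3 (p := p) hvv]
    exact Finset.sum_le_sum fun i _ => Finset.sum_le_sum fun j _ =>
      bessel3 ha hv hvv hE hp h1 h0 hn i j
  have hD : ∑ i : I, ∑ j : κ × κ × κ, ∑ l, ‖adjoint (VV3 ha hv hvv j) (X l (dl (i, 1)))‖ ^ 2 =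
      hsn p ^ 3 * (Fintype.card J : ℝ) := by
    have e1 : ∀ i : I, ∑ j : κ × κ × κ, ∑ l,
        ‖adjoint (VV3 ha hv hvv j) (X l (dl (i, 1)))‖ ^ 2 =
        ∑ l, hsn p ^ 3 * ‖X l (dl (i, 1))‖ ^ 2 := by
      intro i
      rw [Finset.sum_comm]
      refine Finset.sum_congr rfl fun l _ => ?_
      refine sum_VV3_norm ha hv hpv hvv ?_
      exact congrArg (fun L : Ell2 (I × Λ) →L[ℂ] _ => L (dl (i, 1))) (h1 l)
    rw [Finset.sum_congr rfl fun i _ => e1 i, Finset.sum_comm]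
    have e2 : ∀ l, ∑ i : I, hsn p ^ 3 * ‖X l (dl (i, 1))‖ ^ 2 = hsn p ^ 3 := by
      intro l
      rw [← Finset.mul_sum]
      change hsn p ^ 3 * hsn (X l) = _
      rw [hn, mul_one]
    rw [Finset.sum_congr rfl fun l _ => e2 l, Finset.sum_const, Finset.card_univ, nsmul_eq_mul,
      mul_comm]
  rw [hD] at hB
  by_contra hc
  rw [not_le] at hc
  have h3 : hsn p * 1 < hsn p * ((Fintype.card J : ℝ) * hsn p ^ 2) :=
    mul_lt_mul_of_pos_left hc ht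
  nlinarith [h3, hB]

end Vale.Agent.P092.H547

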