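import Vale.Agent.P092.R3.H547.SubC0

set_option linter.all false

open scoped InnerProductSpace
open Filter Topology ContinuousLinearMap

namespace Vale.Agent.P092.H547

open Vale.Agent.P092.H160 Vale.Agent.P092.H367

/-- `exists_block` with the arguments in the order wanted by the assembly. -/
theorem exists_tight {I Λ : Type} [Fintype I] [Group Λ]
    (hL : ∀ g : Λ, g ≠ 1 → Set.Infinite {y : Λ | ∃ h, y = h * g * h⁻¹})
    {p : Ell2 (I × Λ) →L[ℂ] Ell2 (I × Λ)} (p_adj : adjoint p = p) (p_idem : p * p = p)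
    (hpe : Eqv (RrH I Λ) p) (hp0 : p ≠ 0) :
    ∃ (k : ℕ) (v : Fin k → (Ell2 (Unit × Λ) →L[ℂ] Ell2 (I × Λ))),
      (∀ j, Eqv (RrH I Λ) (v j)) ∧ (∀ j, p ∘L v j = v j) ∧
        ∑ j, adjoint (v j) ∘L v j = 1 :=
  exists_block hL p_adj p_idem hp0 hpe

end Vale.Agent.P092.H547
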