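import Vale.Agent.P092.R3.H547.Extr
import Vale.Agent.P092.R3.H547.Lam

/-!
Comparison of a projection of `M_I(L(Λ))` with the unit of one block, `L(Λ)` a factor: by extreme
points of the unit ball (no functional calculus).
-/

set_option linter.all false

open scoped InnerProductSpace
open Filter Topology ContinuousLinearMap

namespace Vale.Agent.P092.H367

open Vale.Agent.P092.H160

namespace L547

section abstract

variable {H K : Type} [NormedAddCommGroup H] [InnerProductSpace ℂ H] [CompleteSpace H]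
  [NormedAddCommGroup K] [InnerProductSpace ℂ K] [CompleteSpace K]

theorem norm_ap_le {v : H →L[ℂ] K} (hv : ‖v‖ ≤ 1) (ξ : H) : ‖v ξ‖ ≤ ‖ξ‖ := by
  refine (v.le_opNorm ξ).trans ?_
  calc ‖v‖ * ‖ξ‖ ≤ 1 * ‖ξ‖ := by gcongr
    _ = ‖ξ‖ := one_mul _

theorem norm_adj_ap_le {v : H →L[ℂ] K} (hv : ‖v‖ ≤ 1) (ξ : K) : ‖adjoint v ξ‖ ≤ ‖ξ‖ :=
  norm_ap_le (by rw [LinearIsometryEquiv.norm_map]; exact hv) ξ

theorem minus_le {v : H →L[ℂ] K} (hv : ‖v‖ ≤ 1) :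
    ‖v - (1 / 2 : ℂ) • (v ∘L (1 - adjoint v ∘L v))‖ ≤ 1 := by
  refine opNorm_le_bound _ zero_le_one fun ξ => ?_
  have e1 : (v - (1 / 2 : ℂ) • (v ∘L (1 - adjoint v ∘L v)) : H →L[ℂ] K) ξ =
      (1 / 2 : ℂ) • (v ξ + v (adjoint v (v ξ))) := by
    change v ξ - (1 / 2 : ℂ) • v (ξ - adjoint v (v ξ)) = _
    rw [map_sub, smul_sub, smul_add]
    have : v ξ = (1 / 2 : ℂ) • v ξ + (1 / 2 : ℂ) • v ξ := by
      rw [← add_smul]; norm_num
    nth_rewrite 1 [this]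
    abel
  rw [e1, norm_smul, one_mul]
  have h1 := norm_ap_le hv ξ
  have h2 := (norm_ap_le hv (adjoint v (v ξ))).trans ((norm_adj_ap_le hv (v ξ)).trans h1)
  have h3 := norm_add_le (v ξ) (v (adjoint v (v ξ)))
  have h4 : ‖(1 / 2 : ℂ)‖ = 1 / 2 := by norm_num
  rw [h4]
  linarith

theorem plus_le {v : H →L[ℂ] K} (hv : ‖v‖ ≤ 1) :
    ‖v + (1 / 2 : ℂ) • (v ∘L (1 - adjoint v ∘L v))‖ ≤ 1 := by
  refine opNorm_le_bound _ zero_le_one fun ξ => ?_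
  obtain ⟨a, ha⟩ : ∃ a, a = v ξ := ⟨_, rfl⟩
  obtain ⟨x, hx⟩ : ∃ x, x = adjoint v a := ⟨_, rfl⟩
  obtain ⟨b, hb⟩ : ∃ b, b = v x := ⟨_, rfl⟩
  have e1 : (v + (1 / 2 : ℂ) • (v ∘L (1 - adjoint v ∘L v)) : H →L[ℂ] K) ξ =
      (1 / 2 : ℂ) • ((3 : ℂ) • a - b) := by
    change v ξ + (1 / 2 : ℂ) • v (ξ - adjoint v (v ξ)) = _
    rw [map_sub, ← ha, ← hx, ← hb, smul_sub, smul_sub, smul_smul]
    have : a = (1 : ℂ) • a := (one_smul _ _).symm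
    nth_rewrite 1 [this]
    rw [← add_sub_assoc, ← add_smul]
    norm_num
  have e2 : RCLike.re ⟪ξ, x⟫_ℂ = ‖a‖ ^ 2 := by
    rw [hx, adjoint_inner_right, ← ha, inner_self_eq_norm_sq_to_K]
    norm_cast
  have e3 : RCLike.re ⟪a, b⟫_ℂ = ‖x‖ ^ 2 := by
    rw [hb, ← adjoint_inner_left, ← hx, inner_self_eq_norm_sq_to_K]
    norm_cast
  have e4 : ‖a - b‖ ≤ ‖ξ - x‖ := by
    rw [ha, hb, ← map_sub]
    exact norm_ap_le hv _
  have e5 := norm_sub_sq (𝕜 := ℂ) a b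
  have e6 := norm_sub_sq (𝕜 := ℂ) ξ x
  have e7 := norm_sub_sq (𝕜 := ℂ) ((3 : ℂ) • a) b
  rw [norm_smul, inner_smul_left] at e7
  have e8 : RCLike.re ((starRingEnd ℂ) 3 * ⟪a, b⟫_ℂ) = 3 * RCLike.re ⟪a, b⟫_ℂ := by
    have : (starRingEnd ℂ) (3 : ℂ) = ((3 : ℝ) : ℂ) := by
      rw [show (3 : ℂ) = ((3 : ℝ) : ℂ) by norm_num, Complex.conj_ofReal]
    rw [this]
    exact Complex.re_ofReal_mul 3 _
  rw [e8] at e7
  have e9 : ‖(3 : ℂ)‖ = 3 := by norm_num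
  rw [e9] at e7
  have e10 : ‖a - b‖ ^ 2 ≤ ‖ξ - x‖ ^ 2 := by gcongr
  have e11 : ‖(3 : ℂ) • a - b‖ ^ 2 ≤ (2 * ‖ξ‖) ^ 2 := by
    have h0 : 0 ≤ ‖ξ - x‖ ^ 2 := by positivity
    nlinarith
  have e12 : ‖(3 : ℂ) • a - b‖ ≤ 2 * ‖ξ‖ :=
    (pow_le_pow_iff_left₀ (norm_nonneg _) (by positivity) two_ne_zero).mp e11
  rw [e1, norm_smul, one_mul]
  have h4 : ‖(1 / 2 : ℂ)‖ = 1 / 2 := by norm_num
  rw [h4]
  linarith

/-- orthogonal sum of a partial isometry and a contraction between the complements -/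
theorem sum_le {v y : H →L[ℂ] K} (hv : v ∘L adjoint v ∘L v = v) (hvn : ‖v‖ ≤ 1) (hy : ‖y‖ ≤ 1)
    (h1 : adjoint v ∘L y = 0) (h2 : y ∘L adjoint v ∘L v = 0) : ‖v + y‖ ≤ 1 := by
  refine opNorm_le_bound _ zero_le_one fun ξ => ?_
  rw [one_mul]
  obtain ⟨η, hη⟩ : ∃ η, η = adjoint v (v ξ) := ⟨_, rfl⟩
  have e1 : v η = v ξ := by
    rw [hη]; exact congrArg (fun L : H →L[ℂ] K => L ξ) hv
  have e2 : y η = 0 := by
    rw [hη]; exact congrArg (fun L : H →L[ℂ] K => L ξ) h2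
  have e3 : y (ξ - η) = y ξ := by rw [map_sub, e2, sub_zero]
  have e4 : ⟪v ξ, y ξ⟫_ℂ = 0 := by
    rw [← adjoint_inner_right]
    have : adjoint v (y ξ) = 0 := congrArg (fun L : H →L[ℂ] H => L ξ) h1
    rw [this, inner_zero_right]
  have e5 : ⟪ξ, η⟫_ℂ = ⟪η, η⟫_ℂ := by
    calc ⟪ξ, η⟫_ℂ = ⟪ξ, adjoint v (v ξ)⟫_ℂ := by rw [hη]
      _ = ⟪v ξ, v ξ⟫_ℂ := adjoint_inner_right _ _ _
      _ = ⟪v η, v ξ⟫_ℂ := by rw [e1]
      _ = ⟪η, adjoint v (v ξ)⟫_ℂ := (adjoint_inner_right _ _ _).symm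
      _ = _ := by rw [← hη]
  have e6 : ⟪v ξ, v ξ⟫_ℂ = ⟪η, η⟫_ℂ := by
    rw [← e5, hη, adjoint_inner_right]
  have n1 : ‖v ξ‖ ^ 2 = ‖η‖ ^ 2 := by
    rw [inner_self_eq_norm_sq_to_K, inner_self_eq_norm_sq_to_K] at e6
    have : ((‖v ξ‖ ^ 2 : ℝ) : ℂ) = ((‖η‖ ^ 2 : ℝ) : ℂ) := by
      push_cast
      exact e6
    exact Complex.ofReal_injective this
  have n2 : ‖v ξ + y ξ‖ ^ 2 = ‖v ξ‖ ^ 2 + ‖y ξ‖ ^ 2 := by
    rw [norm_add_sq (𝕜 := ℂ), e4]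
    simp
  have n3 : ‖ξ - η‖ ^ 2 = ‖ξ‖ ^ 2 - ‖η‖ ^ 2 := by
    rw [norm_sub_sq (𝕜 := ℂ), e5, inner_self_eq_norm_sq_to_K]
    have : RCLike.re (((‖η‖ : ℝ) : ℂ) ^ 2) = ‖η‖ ^ 2 := by norm_cast
    have h' : RCLike.re ((RCLike.ofReal ‖η‖ : ℂ) ^ 2) = ‖η‖ ^ 2 := this
    rw [h']
    ring
  have n4 : ‖y ξ‖ ≤ ‖ξ - η‖ := by
    rw [← e3]
    exact norm_ap_le hy _
  have n5 : ‖y ξ‖ ^ 2 ≤ ‖ξ - η‖ ^ 2 := by gcongr
  refine (pow_le_pow_iff_left₀ (norm_nonneg _) (norm_nonneg _) two_ne_zero).mp ?_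
  change ‖v ξ + y ξ‖ ^ 2 ≤ _
  rw [n2, n1]
  linarith

end abstract

section comp

variable {I Λ : Type} [Fintype I] [Group Λ]

/-- Equivariant contractions into `p`. -/
def Bs (p : Ell2 (I × Λ) →L[ℂ] Ell2 (I × Λ)) : Set (Ell2 (Unit × Λ) →L[ℂ] Ell2 (I × Λ)) :=
  {w | Eqv (RrH I Λ) w ∧ ‖w‖ ≤ 1 ∧ p ∘L w = w}

theorem Eqv_left {p : Ell2 (I × Λ) →L[ℂ] Ell2 (I × Λ)} (hp : Eqv (RrH I Λ) p) {J : Type}
    {w : Ell2 (J × Λ) →L[ℂ] Ell2 (I × Λ)} (hw : Eqv (RrH I Λ) w) : Eqv (RrH I Λ) (p ∘L w) :=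
  hw.left hp

theorem closed_ev {p : Ell2 (I × Λ) →L[ℂ] Ell2 (I × Λ)} (hp : Eqv (RrH I Λ) p)
    {f : Ell2 (I × Λ)}
    (h : f ∈ closure ((fun w : Ell2 (Unit × Λ) →L[ℂ] Ell2 (I × Λ) => w (d1 Unit Λ)) '' Bs p)) :
    ∃ w ∈ Bs p, w (d1 Unit Λ) = f := by
  rw [mem_closure_iff_seq_limit] at h
  obtain ⟨x, hx, hlim⟩ := h
  choose T hT hTx using hx
  have hTs : ∀ (a : Unit × Λ) n, T n (dl a) = Rr I a.2⁻¹ (x n) := by
    rintro ⟨i, a⟩ n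
    rw [(hT n).1.apply_dl, ← hTx]
    rfl
  have hlims : ∀ a : Unit × Λ, Tendsto (fun n => T n (dl a)) atTop (𝓝 (Rr I a.2⁻¹ f)) := by
    intro a
    simp only [hTs]
    exact ((Rr I a.2⁻¹).continuous.tendsto _).comp hlim
  have hb : Bes 1 (fun a : Unit × Λ => Rr I a.2⁻¹ f) := by
    intro s v
    have h1 : Tendsto (fun n => ∑ t ∈ s, ‖⟪T n (dl t), v⟫_ℂ‖ ^ 2) atTop
        (𝓝 (∑ t ∈ s, ‖⟪Rr I t.2⁻¹ f, v⟫_ℂ‖ ^ 2)) :=
      tendsto_finsetSum s fun t _ => (((hlims t).inner tendsto_const_nhds).norm).pow 2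
    refine le_of_tendsto h1 (Eventually.of_forall fun n => ?_)
    exact ((bes_of_op (T n)).mono (norm_nonneg _) (hT n).2.1) s v
  have hdl : ∀ a : Unit × Λ, opOf hb (dl a) = Rr I a.2⁻¹ f := fun a => opOf_dl hb a
  have hf : opOf hb (d1 Unit Λ) = f := by
    rw [d1, hdl, inv_one, Rr_one]; rfl
  have hE : Eqv (RrH I Λ) (opOf hb) := by
    intro s v
    have h1 : opOf hb ∘L Rr Unit s = Rr I s ∘L opOf hb := by
      apply op_ext
      rintro ⟨i, a⟩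
      rw [comp_apply, comp_apply, Rr_dl, hdl, hdl, mul_inv_rev, inv_inv, Rr_mul]
      rfl
    exact congrArg (fun L : Ell2 (Unit × Λ) →L[ℂ] _ => L v) h1
  have hpf : p f = f := by
    have h1 : Tendsto (fun n => p (x n)) atTop (𝓝 (p f)) := (p.continuous.tendsto _).comp hlim
    have h2 : ∀ n, p (x n) = x n := by
      intro n
      rw [← hTx n]
      exact congrArg (fun L : Ell2 (Unit × Λ) →L[ℂ] _ => L (d1 Unit Λ)) (hT n).2.2
    simp only [h2] at h1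
    exact tendsto_nhds_unique h1 hlim
  refine ⟨opOf hb, ⟨hE, by simpa using norm_opOf_le hb, ?_⟩, hf⟩
  refine (Eqv_left hp hE).ext hE fun i => ?_
  change p (opOf hb (d1 Unit Λ)) = opOf hb (d1 Unit Λ)
  rw [hf, hpf]

theorem ev_inj {w : Ell2 (Unit × Λ) →L[ℂ] Ell2 (I × Λ)} (hw : Eqv (RrH I Λ) w)
    (h : w (d1 Unit Λ) = 0) : w = 0 :=
  hw.ext Eqv.zero fun _ => by
    rw [zero_apply]
    exact h

theorem exists_ext {p : Ell2 (I × Λ) →L[ℂ] Ell2 (I × Λ)} (hp : Eqv (RrH I Λ) p) :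
    ∃ v ∈ Bs p, ∀ y, v + y ∈ Bs p → v - y ∈ Bs p → y = 0 := by
  obtain ⟨ev, hev⟩ : ∃ ev : (Ell2 (Unit × Λ) →L[ℂ] Ell2 (I × Λ)) → Ell2 (I × Λ),
    ev = fun w => w (d1 Unit Λ) := ⟨_, rfl⟩
  have hK : IsClosed (ev '' Bs p) := by
    refine isClosed_of_closure_subset fun f hf => ?_
    rw [hev] at hf ⊢
    obtain ⟨w, hw, hwf⟩ := closed_ev hp hf
    exact ⟨w, hw, hwf⟩
  obtain ⟨f, ⟨v, hv, rfl⟩, hext⟩ := exists_extreme (K := ev '' Bs p) (C := 1)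
    ⟨ev 0, 0, ⟨Eqv.zero, by rw [norm_zero]; exact zero_le_one, by rw [comp_zero]⟩, rfl⟩
    (by
      rintro _ ⟨w, hw, rfl⟩
      rw [hev]
      refine (norm_ap_le hw.2.1 _).trans ?_
      rw [norm_d1]) hK
    (by
      rintro _ ⟨w, hw, rfl⟩ _ ⟨w', hw', rfl⟩ a b ha hb hab
      refine ⟨(a : ℂ) • w + (b : ℂ) • w', ⟨(hw.1.smul _).add (hw'.1.smul _), ?_, ?_⟩, ?_⟩
      · calc ‖(a : ℂ) • w + (b : ℂ) • w'‖ ≤ ‖(a : ℂ) • w‖ + ‖(b : ℂ) • w'‖ := norm_add_le _ _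
          _ = a * ‖w‖ + b * ‖w'‖ := by
              rw [norm_smul, norm_smul, Complex.norm_real, Complex.norm_real,
                Real.norm_of_nonneg ha, Real.norm_of_nonneg hb]
          _ ≤ a * 1 + b * 1 := by gcongr; exacts [hw.2.1, hw'.2.1]
          _ = 1 := by linarith
      · rw [comp_add, comp_smul, comp_smul, hw.2.2, hw'.2.2]
      · rw [hev]
        rfl)
  refine ⟨v, hv, fun y h1 h2 => ?_⟩
  have hy : Eqv (RrH I Λ) y := by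
    have h3 := h1.1.sub hv.1
    rw [add_sub_cancel_left] at h3
    exact h3
  refine ev_inj hy ?_
  have h3 := hext (ev y) ⟨v + y, h1, by rw [hev]; rfl⟩ ⟨v - y, h2, by rw [hev]; rfl⟩
  rw [hev] at h3
  exact h3

theorem adj_eqv {J : Type} [Fintype J] {v : Ell2 (J × Λ) →L[ℂ] Ell2 (I × Λ)}
    (hv : Eqv (RrH I Λ) v) : Eqv (RrH J Λ) (adjoint v) := by
  intro s x
  refine ext_inner_left ℂ fun u => ?_
  rw [RrH_apply]
  have e1 : adjoint (Rr J s⁻¹) = Rr J s := by rw [adjoint_Rr, inv_inv]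
  have e2 : adjoint (Rr I s⁻¹) = Rr I s := by rw [adjoint_Rr, inv_inv]
  rw [← e1, adjoint_inner_right, adjoint_inner_right, ← e2, adjoint_inner_right,
    adjoint_inner_right, hv, RrH_apply]

theorem comp_adj_eqv {J J' : Type} [Fintype J] [Fintype J']
    {v : Ell2 (J × Λ) →L[ℂ] Ell2 (I × Λ)} (hv : Eqv (RrH I Λ) v)
    {w : Ell2 (J' × Λ) →L[ℂ] Ell2 (J × Λ)} (hw : Eqv (RrH J Λ) w) : Eqv (RrH I Λ) (v ∘L w) := by
  intro s x
  rw [comp_apply, comp_apply, hw, RrH_apply, hv, RrH_apply]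

theorem adj_comp_eqv {J : Type} [Fintype J] {v : Ell2 (J × Λ) →L[ℂ] Ell2 (I × Λ)}
    (hv : Eqv (RrH I Λ) v) : Eqv (RrH J Λ) (adjoint v ∘L v) :=
  comp_adj_eqv (adj_eqv hv) hv

/-- `dl ((), a) ↦ dl (i, a)` -/
noncomputable def xi (Λ : Type) (i : I) : Ell2 (Unit × Λ) →L[ℂ] Ell2 (I × Λ) :=
  tvr (dl i) ∘L rei (Equiv.punitProd Λ)

omit [Fintype I] [Group Λ] in
theorem xi_dl (i : I) (a : Λ) (u : Unit) : xi Λ i (dl (u, a)) = dl (i, a) := by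
  rw [xi, comp_apply, rei_dl, dl_prod]
  rfl

omit [Fintype I] in
theorem xi_eqv (i : I) : Eqv (RrH I Λ) (xi Λ i) := by
  intro s v
  have h1 : xi Λ i ∘L Rr Unit s = Rr I s ∘L xi Λ i := by
    apply op_ext
    rintro ⟨u, a⟩
    rw [comp_apply, comp_apply, Rr_dl, xi_dl, xi_dl, Rr_dl]
  exact congrArg (fun L : Ell2 (Unit × Λ) →L[ℂ] _ => L v) h1

/-- `L(Λ)` is a factor. -/
theorem factor (hΛ : ∀ g : Λ, g ≠ 1 → Set.Infinite {y : Λ | ∃ h, y = h * g * h⁻¹})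
    {q : Ell2 (I × Λ) →L[ℂ] Ell2 (I × Λ)} (hq : Eqv (RrH I Λ) q)
    {r : Ell2 (Unit × Λ) →L[ℂ] Ell2 (Unit × Λ)} (hr : Eqv (RrH Unit Λ) r)
    (hr1 : adjoint r = r) (hr2 : r * r = r)
    (h : ∀ x : Ell2 (Unit × Λ) →L[ℂ] Ell2 (I × Λ), Eqv (RrH I Λ) x → q ∘L x ∘L r = 0) :
    q = 0 ∨ r = 0 := by
  by_cases hr0 : r = 0
  · exact Or.inr hr0
  left
  have hs : 0 < hsn r := lt_of_le_of_ne (hsn_nonneg r) fun h' => hr0 (hsn_eq_zero hr h'.symm)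
  refine hq.ext Eqv.zero fun i => ?_
  rw [zero_apply]
  obtain ⟨Q, hQ⟩ : ∃ Q, Q = q ∘L xi Λ i := ⟨_, rfl⟩
  have h1 : ∀ (k : Λ) u, Q (Lr Unit k (r u)) = 0 := by
    intro k u
    have h2 := h (xi Λ i ∘L Lr Unit k) ((xi_eqv i).comp (Lr_eqv k))
    rw [hQ]
    exact congrArg (fun L : Ell2 (Unit × Λ) →L[ℂ] _ => L u) h2
  have h3 : Q (d1 Unit Λ) = q (dl (i, 1)) := by
    rw [hQ, comp_apply, d1, xi_dl]
  rw [← h3, ← norm_eq_zero]
  have h4 : hsn r * ‖Q (d1 Unit Λ)‖ ≤ 0 := by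
    refine le_of_eps (M := ‖Q‖) (norm_nonneg _) fun ε hε => ?_
    obtain ⟨J, hJ, c, g, hc0, hc1, hw⟩ := exists_weights hr hr1 hr2 hΛ hε
    have h5 : Q (av c g r (d1 Unit Λ)) = 0 := by
      rw [av_apply, map_sum]
      refine Finset.sum_eq_zero fun j _ => ?_
      rw [map_smul, h1, smul_zero]
    have h6 : ‖Q (av c g r (d1 Unit Λ) - ((hsn r : ℝ) : ℂ) • d1 Unit Λ)‖ ≤ ‖Q‖ * ε := by
      refine (Q.le_opNorm _).trans ?_
      gcongr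
    rw [map_sub, h5, zero_sub, norm_neg, map_smul, norm_smul, Complex.norm_real,
      Real.norm_of_nonneg hs.le] at h6
    linarith
  refine le_antisymm ?_ (norm_nonneg _)
  by_contra hcon
  push Not at hcon
  have := mul_pos hs hcon
  linarith

end comp

end L547

section main

variable {I Λ : Type} [Fintype I] [Group Λ]

open L547

/-- Comparison with the unit of one block. -/
theorem compare (hL : ∀ g : Λ, g ≠ 1 → Set.Infinite {y : Λ | ∃ h, y = h * g * h⁻¹})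
    {p : Ell2 (I × Λ) →L[ℂ] Ell2 (I × Λ)} (p_adj : adjoint p = p) (p_idem : p * p = p)
    (hpe : Eqv (RrH I Λ) p) :
    ∃ v : Ell2 (Unit × Λ) →L[ℂ] Ell2 (I × Λ), Eqv (RrH I Λ) v ∧ p ∘L v = v ∧
      v ∘L adjoint v ∘L v = v ∧ (adjoint v ∘L v = 1 ∨ v ∘L adjoint v = p) := by
  obtain ⟨v, hv, hext⟩ := exists_ext hpe
  have hA : Eqv (RrH Unit Λ) (adjoint v ∘L v) := adj_comp_eqv hv.1
  have hy : Eqv (RrH I Λ) ((1 / 2 : ℂ) • (v ∘L (1 - adjoint v ∘L v))) :=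
    (hv.1.comp (Eqv.one.sub hA)).smul _
  have hpy : p ∘L ((1 / 2 : ℂ) • (v ∘L (1 - adjoint v ∘L v))) =
      (1 / 2 : ℂ) • (v ∘L (1 - adjoint v ∘L v)) := by
    rw [comp_smul, ← ContinuousLinearMap.comp_assoc, hv.2.2]
  have h1 := hext ((1 / 2 : ℂ) • (v ∘L (1 - adjoint v ∘L v)))
    ⟨hv.1.add hy, plus_le hv.2.1, by rw [comp_add, hv.2.2, hpy]⟩
    ⟨hv.1.sub hy, minus_le hv.2.1, by rw [comp_sub, hv.2.2, hpy]⟩
  have hvv : v ∘L adjoint v ∘L v = v := by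
    have h2 : v ∘L (1 - adjoint v ∘L v) = 0 := by
      rw [smul_eq_zero] at h1
      rcases h1 with h1 | h1
      · norm_num at h1
      · exact h1
    rw [comp_sub, sub_eq_zero] at h2
    exact h2.symm
  refine ⟨v, hv.1, hv.2.2, hvv, ?_⟩
  -- the two complements
  obtain ⟨r, hr⟩ : ∃ r, r = 1 - adjoint v ∘L v := ⟨_, rfl⟩
  obtain ⟨q, hq⟩ : ∃ q, q = p - v ∘L adjoint v := ⟨_, rfl⟩
  have hre : Eqv (RrH Unit Λ) r := by rw [hr]; exact Eqv.one.sub hA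
  have hfe : Eqv (RrH I Λ) (v ∘L adjoint v) := comp_adj_eqv hv.1 (adj_eqv hv.1)
  have hqe : Eqv (RrH I Λ) q := by rw [hq]; exact hpe.sub hfe
  have hr1 : adjoint r = r := by
    rw [hr, map_sub, adjoint_comp, adjoint_adjoint]
    congr 1
    rw [← star_eq_adjoint, star_one]
  have hvr : v ∘L r = 0 := by
    rw [hr, comp_sub, hvv]
    exact sub_self v
  have hr2 : r * r = r := by
    change r ∘L r = r
    nth_rewrite 1 [hr]
    rw [sub_comp]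
    change r - adjoint v ∘L (v ∘L r) = r
    rw [hvr, comp_zero, sub_zero]
  have hpv' : adjoint v ∘L p = adjoint v := by
    have := congrArg adjoint hv.2.2
    rw [adjoint_comp, p_adj] at this
    exact this
  have hvv' : adjoint v ∘L v ∘L adjoint v = adjoint v := by
    have := congrArg adjoint hvv
    rw [adjoint_comp, adjoint_comp, adjoint_adjoint] at this
    exact this
  have hvq : adjoint v ∘L q = 0 := by
    rw [hq, comp_sub, hpv', hvv', sub_self]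
  have hpq : p ∘L q = q := by
    rw [hq, comp_sub]
    have e1 : p ∘L p = p := p_idem
    have e2 : p ∘L (v ∘L adjoint v) = v ∘L adjoint v := by
      rw [← ContinuousLinearMap.comp_assoc, hv.2.2]
    rw [e1, e2]
  have hrv : r ∘L adjoint v ∘L v = 0 := by
    have e1 := congrArg adjoint hvr
    rw [adjoint_comp, hr1, map_zero] at e1
    rw [← ContinuousLinearMap.comp_assoc, e1, zero_comp]
  have key : ∀ x : Ell2 (Unit × Λ) →L[ℂ] Ell2 (I × Λ), Eqv (RrH I Λ) x → q ∘L x ∘L r = 0 := by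
    intro x hx
    obtain ⟨y, hy⟩ : ∃ y, y = q ∘L x ∘L r := ⟨_, rfl⟩
    have hye : Eqv (RrH I Λ) y := by
      rw [hy]
      exact comp_adj_eqv hqe (comp_adj_eqv hx hre)
    obtain ⟨c, hc⟩ : ∃ c : ℝ, c = (‖y‖ + 1)⁻¹ := ⟨_, rfl⟩
    have hn : 0 < ‖y‖ + 1 := by positivity
    have hc0 : 0 < c := by rw [hc]; positivity
    have hcn : ‖(c : ℂ) • y‖ ≤ 1 := by
      rw [norm_smul, Complex.norm_real, Real.norm_of_nonneg hc0.le, hc, inv_mul_le_iff₀ hn]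
      linarith
    have hvy : adjoint v ∘L y = 0 := by
      rw [hy, ← ContinuousLinearMap.comp_assoc, hvq, zero_comp]
    have hyv : y ∘L adjoint v ∘L v = 0 := by
      rw [hy]
      change q ∘L x ∘L (r ∘L adjoint v ∘L v) = 0
      rw [hrv, comp_zero, comp_zero]
    have hpy : p ∘L y = y := by
      rw [hy, ← ContinuousLinearMap.comp_assoc, hpq]
    have s1 : adjoint v ∘L ((c : ℂ) • y) = 0 := by rw [comp_smul, hvy, smul_zero]
    have s2 : ((c : ℂ) • y) ∘L adjoint v ∘L v = 0 := by rw [smul_comp, hyv, smul_zero]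
    have s3 : p ∘L ((c : ℂ) • y) = (c : ℂ) • y := by rw [comp_smul, hpy]
    have s4 : adjoint v ∘L (-((c : ℂ) • y)) = 0 := by rw [comp_neg, s1, neg_zero]
    have s5 : (-((c : ℂ) • y)) ∘L adjoint v ∘L v = 0 := by rw [neg_comp, s2, neg_zero]
    have h3 := hext ((c : ℂ) • y)
      ⟨hv.1.add (hye.smul _), sum_le hvv hv.2.1 hcn s1 s2, by rw [comp_add, hv.2.2, s3]⟩
      ⟨hv.1.sub (hye.smul _), by
        rw [sub_eq_add_neg]
        exact sum_le hvv hv.2.1 (by rw [norm_neg]; exact hcn) s4 s5,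
        by rw [comp_sub, hv.2.2, s3]⟩
    rw [smul_eq_zero] at h3
    rw [← hy]
    rcases h3 with h3 | h3
    · exact absurd (Complex.ofReal_eq_zero.1 h3) hc0.ne'
    · exact h3
  rcases factor hL hqe hre hr1 hr2 key with h4 | h4
  · right
    rw [hq, sub_eq_zero] at h4
    exact h4.symm
  · left
    rw [hr, sub_eq_zero] at h4
    exact h4.symm

end main

end Vale.Agent.P092.H367
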