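import Vale.Agent.P092.R3.H547.Lam
import Vale.Agent.P092.R3.H423.Common

/-!
The corner `p L(Λ) p`, final form: a nonzero bounded cubic intertwiner forces `τ(p) ≥ 1`.
-/

set_option linter.all false

namespace Vale.Agent.P092.H367

open Vale.Agent.P092.H160

theorem one_le_hsn {I Λ Γ : Type} [Fintype I] [Unique I] [Group Λ] [Group Γ]
    {p : Ell2 (I × Λ) →L[ℂ] Ell2 (I × Λ)} {α : Γ → (Ell2 (I × Λ) →L[ℂ] Ell2 (I × Λ))}
    {T : Ell2 (I × Λ) →L[ℂ] Ell2 ((I × Λ) × (I × Λ) × (I × Λ))} (ha : AFrame p α)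
    (hG : ∀ g : Γ, g ≠ 1 → Set.Infinite {y : Γ | ∃ h, y = h * g * h⁻¹})
    (hL : ∀ g : Λ, g ≠ 1 → Set.Infinite {y : Λ | ∃ h, y = h * g * h⁻¹})
    (hT : Itw3 α T) (hT0 : T ≠ 0) : 1 ≤ hsn p := by
  obtain ⟨b, hb, hTT⟩ := adj_self ha hG hT hT0
  exact L547.one_le_hsn_aux ha hT hL hb hTT

end Vale.Agent.P092.H367
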