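import Vale.Agent.P092.R3.H547.DimV

/-!
The dimension bound: a family of cubic operators all of whose translates are orthonormal has at
most `1 / (Tr p)²` members.
-/

set_option linter.all false

open scoped InnerProductSpace
open Filter Topology ContinuousLinearMap

namespace Vale.Agent.P092.H547

open Vale.Agent.P092.H160 Vale.Agent.P092.H367 Vale.Agent.P092.H781

/-! ### Additivity of the tensor product -/

section tens

variable {X Y X' Y' ι : Type}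

theorem tens_sum_left (F : Finset ι) (A : ι → (Ell2 X →L[ℂ] Ell2 X')) (B : Ell2 Y →L[ℂ] Ell2 Y') :
    tens (∑ a ∈ F, A a) B = ∑ a ∈ F, tens (A a) B := by
  apply op_ext
  rintro ⟨x, y⟩
  rw [tens_dl, sum_apply, sum_apply]
  simp only [tens_dl]
  exact map_sum (tvl (B (dl y))) _ _

theorem tens_sum_right (F : Finset ι) (A : Ell2 X →L[ℂ] Ell2 X') (B : ι → (Ell2 Y →L[ℂ] Ell2 Y')) :
    tens A (∑ a ∈ F, B a) = ∑ a ∈ F, tens A (B a) := by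
  apply op_ext
  rintro ⟨x, y⟩
  rw [tens_dl, sum_apply, sum_apply]
  simp only [tens_dl]
  exact map_sum (tvr (A (dl x))) _ _

theorem bar_add (A B : Ell2 X →L[ℂ] Ell2 X') : bar (A + B) = bar A + bar B := by
  apply op_ext
  intro x
  rw [bar_dl, add_apply, add_apply, cj_add, bar_dl, bar_dl]

theorem bar_zero : bar (0 : Ell2 X →L[ℂ] Ell2 X') = 0 := by
  have h := bar_smul (0 : ℂ) (0 : Ell2 X →L[ℂ] Ell2 X')
  rw [zero_smul, map_zero, zero_smul] at h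
  exact h

theorem bar_sum (F : Finset ι) (A : ι → (Ell2 X →L[ℂ] Ell2 X')) :
    bar (∑ a ∈ F, A a) = ∑ a ∈ F, bar (A a) := by
  classical
  induction F using Finset.induction_on with
  | empty => rw [Finset.sum_empty, Finset.sum_empty, bar_zero]
  | insert a s ha ih => rw [Finset.sum_insert ha, Finset.sum_insert ha, bar_add, ih]

/-- `A ⊗ conj B ⊗ C` -/
noncomputable def t3 (A B C : Ell2 X →L[ℂ] Ell2 X') :
    Ell2 (X × X × X) →L[ℂ] Ell2 (X' × X' × X') := tens A (tens (bar B) C)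

theorem t3_sum {κ : Type} [Fintype κ] (A : κ → (Ell2 X →L[ℂ] Ell2 X')) :
    ∑ j : κ × κ × κ, t3 (A j.1) (A j.2.1) (A j.2.2) =
      t3 (∑ a, A a) (∑ a, A a) (∑ a, A a) := by
  rw [Fintype.sum_prod_type]
  simp only [Fintype.sum_prod_type]
  rw [t3, bar_sum, tens_sum_left]
  refine Finset.sum_congr rfl fun a _ => ?_
  rw [tens_sum_left, tens_sum_right]
  refine Finset.sum_congr rfl fun b _ => ?_
  rw [tens_sum_right, tens_sum_right]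
  rfl

theorem t3_comp {X'' : Type} (A B C : Ell2 X →L[ℂ] Ell2 X') (A' B' C' : Ell2 X' →L[ℂ] Ell2 X'') :
    t3 A' B' C' ∘L t3 A B C = t3 (A' ∘L A) (B' ∘L B) (C' ∘L C) := by
  rw [t3, t3, tens_comp, tens_comp, ← bar_comp]
  rfl

theorem t3_adj (A B C : Ell2 X →L[ℂ] Ell2 X') :
    adjoint (t3 A B C) = t3 (adjoint A) (adjoint B) (adjoint C) := by
  rw [t3, adjoint_tens, adjoint_tens, adjoint_bar]
  rfl

theorem t3_one : t3 (1 : Ell2 X →L[ℂ] Ell2 X) 1 1 = 1 := by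
  rw [t3, bar_one, tens_one, tens_one]

theorem t3_smul (c : ℝ) (A B C : Ell2 X →L[ℂ] Ell2 X') :
    t3 ((c : ℂ) • A) ((c : ℂ) • B) ((c : ℂ) • C) = ((c ^ 3 : ℝ) : ℂ) • t3 A B C := by
  rw [t3, bar_smul, Complex.conj_ofReal, tens_smul_left, tens_smul_left, tens_smul_right,
    tens_smul_right, tens_smul_right, smul_smul, smul_smul, t3]
  push_cast
  congr 1
  ring

end tens

section sums

theorem sum_norm {κ H K : Type} [Fintype κ] [NormedAddCommGroup H] [InnerProductSpace ℂ H]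
    [CompleteSpace H] [NormedAddCommGroup K] [InnerProductSpace ℂ K] [CompleteSpace K]
    {v : κ → (H →L[ℂ] K)} (hvv : ∑ j, adjoint (v j) ∘L v j = 1) (x : H) :
    ∑ j, ‖v j x‖ ^ 2 = ‖x‖ ^ 2 := by
  have h : ⟪x, (∑ j, adjoint (v j) ∘L v j) x⟫_ℂ = ⟪x, x⟫_ℂ := by rw [hvv]; rfl
  rw [sum_apply, inner_sum] at h
  have h2 : ∀ j, ⟪x, (adjoint (v j) ∘L v j) x⟫_ℂ = ((‖v j x‖ ^ 2 : ℝ) : ℂ) := by
    intro j
    rw [comp_apply, adjoint_inner_right, inner_self_c]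
  rw [Finset.sum_congr rfl fun j _ => h2 j, inner_self_c, ← Complex.ofReal_sum] at h
  exact_mod_cast h

theorem norm_le_one_of_sum {κ H K : Type} [Fintype κ] [NormedAddCommGroup H]
    [InnerProductSpace ℂ H] [CompleteSpace H] [NormedAddCommGroup K] [InnerProductSpace ℂ K]
    [CompleteSpace K] {v : κ → (H →L[ℂ] K)} (hvv : ∑ j, adjoint (v j) ∘L v j = 1) (j : κ) :
    ‖v j‖ ≤ 1 := by
  refine (v j).opNorm_le_bound zero_le_one fun x => ?_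
  rw [one_mul]
  refine (pow_le_pow_iff_left₀ (norm_nonneg _) (norm_nonneg _) two_ne_zero).mp ?_
  rw [← sum_norm hvv x]
  exact Finset.single_le_sum (f := fun j => ‖v j x‖ ^ 2) (fun _ _ => by positivity)
    (Finset.mem_univ j)

variable {I Λ : Type} [Fintype I] [Group Λ]

omit [Fintype I] [Group Λ] in
theorem adj_xi_apply (i : I) (w : Ell2 (I × Λ)) (u : Unit) (a : Λ) :
    (adjoint (L547.xi Λ i) w) (u, a) = w (i, a) := by
  rw [← inner_dl, adjoint_inner_right, L547.xi_dl, inner_dl]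

omit [Group Λ] in
theorem sum_xi : ∑ i : I, adjoint (adjoint (L547.xi Λ i)) ∘L adjoint (L547.xi Λ i) = 1 := by
  classical
  apply op_ext
  rintro ⟨i₀, h⟩
  rw [sum_apply, Finset.sum_eq_single i₀]
  · rw [comp_apply, adjoint_adjoint]
    have h1 : adjoint (L547.xi Λ i₀) (dl (i₀, h)) = dl ((), h) := by
      apply ext_inner_dl
      rintro ⟨u, a⟩
      rw [adj_xi_apply, dl_apply, dl_apply]
      by_cases hah : a = h
      · rw [if_pos (by rw [hah]), if_pos (by rw [hah])]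
      · rw [if_neg fun e => hah (congrArg Prod.snd e), if_neg fun e => hah (congrArg Prod.snd e)]
    rw [h1, L547.xi_dl]
    rfl
  · intro i _ hi
    have h1 : adjoint (L547.xi Λ i) (dl (i₀, h)) = 0 := by
      apply ext_inner_dl
      rintro ⟨u, a⟩
      rw [adj_xi_apply, dl_ne fun e => hi (congrArg Prod.fst e)]
      rfl
    rw [comp_apply, h1, map_zero]
  · intro h1
    exact absurd (Finset.mem_univ i₀) h1

end sums

section main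

variable {I Λ Γ : Type} [Fintype I] [Group Λ] [Group Γ]
  {p : Ell2 (I × Λ) →L[ℂ] Ell2 (I × Λ)} {α : Γ → (Ell2 (I × Λ) →L[ℂ] Ell2 (I × Λ))}
  {κ : Type} [Fintype κ] {v : κ → (Ell2 (Unit × Λ) →L[ℂ] Ell2 (I × Λ))}

/-- `V_j` -/
noncomputable def VV (ha : AFrame p α) (hv : ∀ j, Eqv (RrH I Λ) (v j))
    (hvv : ∑ j, adjoint (v j) ∘L v j = 1) (j : κ) : Ell2 Γ →L[ℂ] Ell2 (I × Λ) :=
  Vv ha (hv j) (norm_le_one_of_sum hvv j)

theorem sum_hsn (hv : ∀ j, Eqv (RrH I Λ) (v j)) (hvv : ∑ j, adjoint (v j) ∘L v j = 1)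
    {E : Ell2 (Unit × Λ) →L[ℂ] Ell2 (I × Λ)} (hE : Eqv (RrH I Λ) E) :
    ∑ j, hsn (E ∘L adjoint (v j)) = ‖E (dl ((), 1))‖ ^ 2 := by
  have h1 : ∀ j, ((hsn (E ∘L adjoint (v j)) : ℝ) : ℂ) =
      ⟪E (dl ((), 1)), E ((adjoint (v j) ∘L v j) (dl ((), 1)))⟫_ℂ := by
    intro j
    have hX : Eqv (RrH I Λ) (E ∘L adjoint (v j)) := by
      intro s x
      rw [comp_apply, comp_apply, eqv_adjoint (hv j) s x, RrH_apply, hE]
    rw [← hs_self, hs_rect adj_RrH hE hX (hv j), hs_unit]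
    rfl
  have h2 : (((∑ j, hsn (E ∘L adjoint (v j)) : ℝ)) : ℂ) = ((‖E (dl ((), 1))‖ ^ 2 : ℝ) : ℂ) := by
    rw [Complex.ofReal_sum, Finset.sum_congr rfl fun j _ => h1 j, ← inner_sum, ← map_sum,
      ← sum_apply, hvv, ← inner_self_c]
    rfl
  exact_mod_cast h2

theorem sum_VV_norm (ha : AFrame p α) (hv : ∀ j, Eqv (RrH I Λ) (v j)) (hpv : ∀ j, p ∘L v j = v j)
    (hvv : ∑ j, adjoint (v j) ∘L v j = 1) (u : Ell2 (I × Λ)) :
    ∑ j, ‖adjoint (VV ha hv hvv j) u‖ ^ 2 = hsn p * ‖p u‖ ^ 2 := by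
  refine all_of_dense (P := fun u => ∑ j, ‖adjoint (VV ha hv hvv j) u‖ ^ 2 =
    hsn p * ‖p u‖ ^ 2) ?_ (fun B hB => ?_) u
  · refine isClosed_eq ?_ ?_
    · fun_prop
    · fun_prop
  · have hE : Eqv (RrH I Λ) (p ∘L B) := by
      intro s x
      rw [comp_apply, comp_apply, hB, RrH_apply, p_eqv ha s, RrH_apply]
    have h1 := sum_hsn hv hvv hE
    rw [comp_apply] at h1
    rw [← h1, Finset.mul_sum]
    exact Finset.sum_congr rfl fun j _ =>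
      norm_Vv_adj ha (hv j) (norm_le_one_of_sum hvv j) (hpv j) hB

theorem sum_VV (ha : AFrame p α) (hv : ∀ j, Eqv (RrH I Λ) (v j)) (hpv : ∀ j, p ∘L v j = v j)
    (hvv : ∑ j, adjoint (v j) ∘L v j = 1) :
    ∑ j, VV ha hv hvv j ∘L adjoint (VV ha hv hvv j) = ((hsn p : ℝ) : ℂ) • p := by
  have h0 : ∀ u : Ell2 (I × Λ), ⟪(∑ j, VV ha hv hvv j ∘L adjoint (VV ha hv hvv j)) u, u⟫_ℂ =
      ⟪(((hsn p : ℝ) : ℂ) • p) u, u⟫_ℂ := by
    intro u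
    rw [sum_apply, sum_inner, smul_apply, inner_smul_left, Complex.conj_ofReal]
    have h1 : ∀ j, ⟪(VV ha hv hvv j ∘L adjoint (VV ha hv hvv j)) u, u⟫_ℂ =
        ((‖adjoint (VV ha hv hvv j) u‖ ^ 2 : ℝ) : ℂ) := by
      intro j
      rw [comp_apply, ← adjoint_inner_right, inner_self_c]
    have h2 : ⟪p u, u⟫_ℂ = ((‖p u‖ ^ 2 : ℝ) : ℂ) := by
      rw [← inner_self_c]
      conv_rhs => rw [← adjoint_inner_right, ha.p_adj, ← mul_ap, ha.p_idem]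
      rw [← adjoint_inner_right, ha.p_adj]
    rw [Finset.sum_congr rfl fun j _ => h1 j, h2, ← Complex.ofReal_sum,
      sum_VV_norm ha hv hpv hvv u]
    push_cast
    rfl
  have h3 := (ext_inner_map (V := Ell2 (I × Λ))
    ((∑ j, VV ha hv hvv j ∘L adjoint (VV ha hv hvv j) : Ell2 (I × Λ) →L[ℂ] Ell2 (I × Λ)) :
      Ell2 (I × Λ) →ₗ[ℂ] Ell2 (I × Λ)) ((((hsn p : ℝ) : ℂ) • p :
      Ell2 (I × Λ) →L[ℂ] Ell2 (I × Λ)) : Ell2 (I × Λ) →ₗ[ℂ] Ell2 (I × Λ))).mp h0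
  exact ContinuousLinearMap.coe_injective h3

/-- `V_j₁ ⊗ conj V_j₂ ⊗ V_j₃` -/
noncomputable def VV3 (ha : AFrame p α) (hv : ∀ j, Eqv (RrH I Λ) (v j))
    (hvv : ∑ j, adjoint (v j) ∘L v j = 1) (j : κ × κ × κ) :
    Ell2 (Γ × Γ × Γ) →L[ℂ] Ell2 ((I × Λ) × (I × Λ) × (I × Λ)) :=
  t3 (VV ha hv hvv j.1) (VV ha hv hvv j.2.1) (VV ha hv hvv j.2.2)

/-- `v_j₁ ⊗ conj v_j₂ ⊗ v_j₃` -/
noncomputable def W3 (v : κ → (Ell2 (Unit × Λ) →L[ℂ] Ell2 (I × Λ))) (j : κ × κ × κ) :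
    Ell2 ((Unit × Λ) × (Unit × Λ) × (Unit × Λ)) →L[ℂ] Ell2 ((I × Λ) × (I × Λ) × (I × Λ)) :=
  t3 (v j.1) (v j.2.1) (v j.2.2)

theorem VV3_dl (ha : AFrame p α) (hv : ∀ j, Eqv (RrH I Λ) (v j))
    (hvv : ∑ j, adjoint (v j) ∘L v j = 1) (j : κ × κ × κ) (y : Γ × Γ × Γ) :
    VV3 ha hv hvv j (dl y) = A3 α y (W3 v j (dl (((), 1), ((), 1), ((), 1)))) := by
  obtain ⟨a, b, c⟩ := y
  change _ = tens (α a) (tens (bar (α b)) (α c)) _
  rw [VV3, W3, t3, t3, tens_dl, tens_dl, tens_dl, tens_dl, bar_dl, bar_dl, tens_tv, tens_tv,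
    bar_cj, VV, VV, VV, Vv_dl, Vv_dl, Vv_dl]

theorem sum_W3 (hvv : ∑ j, adjoint (v j) ∘L v j = 1) :
    ∑ j : κ × κ × κ, adjoint (W3 v j) ∘L W3 v j = 1 := by
  have h1 : ∀ j : κ × κ × κ, adjoint (W3 v j) ∘L W3 v j =
      t3 (adjoint (v j.1) ∘L v j.1) (adjoint (v j.2.1) ∘L v j.2.1)
        (adjoint (v j.2.2) ∘L v j.2.2) := by
    intro j
    rw [W3, t3_adj, t3_comp]
  rw [Finset.sum_congr rfl fun j _ => h1 j, t3_sum (fun j => adjoint (v j) ∘L v j), hvv, t3_one]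

theorem sum_VV3 (ha : AFrame p α) (hv : ∀ j, Eqv (RrH I Λ) (v j)) (hpv : ∀ j, p ∘L v j = v j)
    (hvv : ∑ j, adjoint (v j) ∘L v j = 1) :
    ∑ j : κ × κ × κ, VV3 ha hv hvv j ∘L adjoint (VV3 ha hv hvv j) =
      ((hsn p ^ 3 : ℝ) : ℂ) • A3 α 1 := by
  have h1 : ∀ j : κ × κ × κ, VV3 ha hv hvv j ∘L adjoint (VV3 ha hv hvv j) =
      t3 (VV ha hv hvv j.1 ∘L adjoint (VV ha hv hvv j.1))
        (VV ha hv hvv j.2.1 ∘L adjoint (VV ha hv hvv j.2.1))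
        (VV ha hv hvv j.2.2 ∘L adjoint (VV ha hv hvv j.2.2)) := by
    intro j
    rw [VV3, t3_adj, t3_comp]
  rw [Finset.sum_congr rfl fun j _ => h1 j,
    t3_sum (fun j => VV ha hv hvv j ∘L adjoint (VV ha hv hvv j)), sum_VV ha hv hpv hvv, t3_smul]
  change _ = _ • tens (α 1) (tens (bar (α 1)) (α 1))
  rw [ha.one]
  rfl

theorem sum_VV3_norm (ha : AFrame p α) (hv : ∀ j, Eqv (RrH I Λ) (v j))
    (hpv : ∀ j, p ∘L v j = v j) (hvv : ∑ j, adjoint (v j) ∘L v j = 1)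
    {w : Ell2 ((I × Λ) × (I × Λ) × (I × Λ))} (hw : A3 α 1 w = w) :
    ∑ j : κ × κ × κ, ‖adjoint (VV3 ha hv hvv j) w‖ ^ 2 = hsn p ^ 3 * ‖w‖ ^ 2 := by
  have h1 : ⟪w, (∑ j : κ × κ × κ, VV3 ha hv hvv j ∘L adjoint (VV3 ha hv hvv j)) w⟫_ℂ =
      ((hsn p ^ 3 * ‖w‖ ^ 2 : ℝ) : ℂ) := by
    rw [sum_VV3 ha hv hpv hvv, smul_apply, hw, inner_smul_right, inner_self_c]
    push_cast
    rfl
  rw [sum_apply, inner_sum] at h1
  have h2 : ∀ j : κ × κ × κ, ⟪w, (VV3 ha hv hvv j ∘L adjoint (VV3 ha hv hvv j)) w⟫_ℂ =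
      ((‖adjoint (VV3 ha hv hvv j) w‖ ^ 2 : ℝ) : ℂ) := by
    intro j
    rw [comp_apply, ← adjoint_inner_left, inner_self_c]
  rw [Finset.sum_congr rfl fun j _ => h2 j, ← Complex.ofReal_sum] at h1
  exact_mod_cast h1

theorem W3_eqv (hv : ∀ j, Eqv (RrH I Λ) (v j)) (j : κ × κ × κ) (s : Λ)
    (x : Ell2 ((Unit × Λ) × (Unit × Λ) × (Unit × Λ))) :
    W3 v j (R3H Unit Λ s x) = R3H I Λ s (W3 v j x) := by
  have h1 : ∀ a, v a ∘L Rr Unit s = Rr I s ∘L v a := by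
    intro a
    ext1 x
    exact hv a s x
  have h2 : W3 v j ∘L R3H Unit Λ s = R3H I Λ s ∘L W3 v j := by
    have e1 : R3H Unit Λ s = t3 (Rr Unit s) (Rr Unit s) (Rr Unit s) := by
      rw [t3, bar_Rr]; rfl
    have e2 : R3H I Λ s = t3 (Rr I s) (Rr I s) (Rr I s) := by
      rw [t3, bar_Rr]; rfl
    rw [e1, e2, W3, t3_comp, t3_comp, h1, h1, h1]
  exact congrArg (fun L : Ell2 ((Unit × Λ) × (Unit × Λ) × (Unit × Λ)) →L[ℂ]
    Ell2 ((I × Λ) × (I × Λ) × (I × Λ)) => L x) h2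

/-- The test operators. -/
noncomputable def Z3 (v : κ → (Ell2 (Unit × Λ) →L[ℂ] Ell2 (I × Λ))) (i : I) (j : κ × κ × κ) :
    Ell2 (I × Λ) →L[ℂ] Ell2 ((I × Λ) × (I × Λ) × (I × Λ)) :=
  (W3 v j ∘L D0 (Unit × Λ)) ∘L adjoint (L547.xi Λ i)

theorem WD_eqv (hv : ∀ j, Eqv (RrH I Λ) (v j)) (j : κ × κ × κ) :
    Eqv (R3H I Λ) (W3 v j ∘L D0 (Unit × Λ)) := by
  intro s x
  rw [comp_apply, comp_apply, eqv_D0, W3_eqv hv]

theorem Z3_eqv (hv : ∀ j, Eqv (RrH I Λ) (v j)) (i : I) (j : κ × κ × κ) :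
    Eqv (R3H I Λ) (Z3 v i j) := by
  intro s x
  have h1 : Eqv (RrH Unit Λ) (adjoint (L547.xi Λ i)) := eqv_adjoint (L547.xi_eqv i)
  change (W3 v j ∘L D0 (Unit × Λ)) (adjoint (L547.xi Λ i) (Rr I s x)) = _
  rw [h1, RrH_apply]
  exact WD_eqv hv j s (adjoint (L547.xi Λ i) x)

theorem coeff3 (ha : AFrame p α) (hv : ∀ j, Eqv (RrH I Λ) (v j)) (i : I) (j : κ × κ × κ)
    {X : Ell2 (I × Λ) →L[ℂ] Ell2 ((I × Λ) × (I × Λ) × (I × Λ))} (hX : Eqv (R3H I Λ) X)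
    (y : Γ × Γ × Γ) :
    ⟪A3 α y (W3 v j (dl (((), 1), ((), 1), ((), 1)))), X (dl (i, 1))⟫_ℂ =
      hs (Z3 v i j) (A3 α y⁻¹ ∘L X) := by
  have hS : Eqv (R3H I Λ) (A3 α y ∘L (W3 v j ∘L D0 (Unit × Λ))) :=
    (WD_eqv hv j).left (ha.A3_R3 y)
  have h1 := hs_rect adjoint_R3 hS hX (L547.xi_eqv (Λ := Λ) i)
  have h2 : hs (A3 α y ∘L (W3 v j ∘L D0 (Unit × Λ))) (X ∘L L547.xi Λ i) =
      ⟪A3 α y (W3 v j (dl (((), 1), ((), 1), ((), 1)))), X (dl (i, 1))⟫_ℂ := by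
    rw [hs_unit, comp_apply, comp_apply, comp_apply, D0_dl, L547.xi_dl]
  rw [← h2, ← h1]
  unfold hs
  refine Finset.sum_congr rfl fun i' _ => ?_
  change ⟪A3 α y (Z3 v i j (dl (i', 1))), X (dl (i', 1))⟫_ℂ =
    ⟪Z3 v i j (dl (i', 1)), A3 α y⁻¹ (X (dl (i', 1)))⟫_ℂ
  rw [← ha.A3_adj y, adjoint_inner_right]

end main

end Vale.Agent.P092.H547
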