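import Vale.Agent.P092.R3.H781.Tra
import Vale.Agent.P092.R3.H367.Cub
import Vale.Agent.P092.R3.H547.Comp

/-!
The dimension bound: a family of cubic operators all of whose translates are orthonormal has at
most `1 / (Tr p)²` members.
-/

set_option linter.all false

open scoped InnerProductSpace
open Filter Topology ContinuousLinearMap

namespace Vale.Agent.P092.H547

open Vale.Agent.P092.H160 Vale.Agent.P092.H367 Vale.Agent.P092.H781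

/-! ### Rectangular trace identities -/

section rect

variable {I J Λ : Type} [Fintype I] [Fintype J] [Group Λ]
variable {K : Type} [NormedAddCommGroup K] [InnerProductSpace ℂ K] [CompleteSpace K]

omit [Fintype I] [Fintype J] in
theorem adj_comp_rect {σ : Λ →* (K →L[ℂ] K)} (hσ : ∀ s, adjoint (σ s) = σ s⁻¹)
    {S : Ell2 (J × Λ) →L[ℂ] K} {T : Ell2 (I × Λ) →L[ℂ] K} (hS : Eqv σ S) (hT : Eqv σ T) :
    Eqv (RrH J Λ) (adjoint S ∘L T) := by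
  intro s v
  refine ext_inner_left ℂ fun u => ?_
  rw [RrH_apply]
  change ⟪u, adjoint S (T (Rr I s v))⟫_ℂ = ⟪u, Rr J s (adjoint S (T v))⟫_ℂ
  have e1 : adjoint (Rr J s⁻¹) = Rr J s := by rw [adjoint_Rr, inv_inv]
  have e2 : adjoint (σ s⁻¹) = σ s := by rw [hσ, inv_inv]
  rw [adjoint_inner_right, hT, ← e1, ← e2, adjoint_inner_right, adjoint_inner_right,
    adjoint_inner_right, hS]

theorem hs_rect {σ : Λ →* (K →L[ℂ] K)} (hσ : ∀ s, adjoint (σ s) = σ s⁻¹)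
    {S : Ell2 (J × Λ) →L[ℂ] K} {X : Ell2 (I × Λ) →L[ℂ] K} (hS : Eqv σ S) (hX : Eqv σ X)
    {w : Ell2 (J × Λ) →L[ℂ] Ell2 (I × Λ)} (hw : Eqv (RrH I Λ) w) :
    hs (S ∘L adjoint w) X = hs S (X ∘L w) := by
  rw [hs_eq_Tr, hs_eq_Tr, adjoint_comp, adjoint_adjoint]
  change Tr (w ∘L (adjoint S ∘L X)) = Tr ((adjoint S ∘L X) ∘L w)
  exact trace_rect hw (adj_comp_rect hσ hS hX)

theorem hs_conj' (S T : Ell2 (I × Λ) →L[ℂ] K) : (starRingEnd ℂ) (hs S T) = hs T S := by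
  rw [hs, hs, map_sum]
  exact Finset.sum_congr rfl fun i _ => inner_conj_symm _ _

theorem hs_unit (S T : Ell2 (Unit × Λ) →L[ℂ] K) :
    hs S T = ⟪S (dl ((), 1)), T (dl ((), 1))⟫_ℂ := by
  unfold hs
  rw [Fintype.sum_unique]

theorem hsn_adj_rect {A : Ell2 (I × Λ) →L[ℂ] Ell2 (J × Λ)} (hA : Eqv (RrH J Λ) A) :
    hsn (adjoint A) = hsn A := by
  have h1 := hsn_eq_Tr (adjoint A)
  rw [adjoint_adjoint, trace_rect hA (eqv_adjoint hA), ← hsn_eq_Tr] at h1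
  exact_mod_cast h1

end rect

/-! ### The operators `V` -/

section V

variable {I Λ Γ : Type} [Fintype I] [Group Λ] [Group Γ]
  {p : Ell2 (I × Λ) →L[ℂ] Ell2 (I × Λ)} {α : Γ → (Ell2 (I × Λ) →L[ℂ] Ell2 (I × Λ))}
  {v B : Ell2 (Unit × Λ) →L[ℂ] Ell2 (I × Λ)}

theorem adj_RrH (s : Λ) : adjoint (RrH I Λ s) = RrH I Λ s⁻¹ := by
  rw [RrH_apply, adjoint_Rr, RrH_apply]

theorem coeff {A : Ell2 (I × Λ) →L[ℂ] Ell2 (I × Λ)} (hA : Eqv (RrH I Λ) A)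
    (hv : Eqv (RrH I Λ) v) (hB : Eqv (RrH I Λ) B) :
    ⟪A (v (dl ((), 1))), B (dl ((), 1))⟫_ℂ = hs A (B ∘L adjoint v) := by
  have h1 := hs_rect adj_RrH hB hA hv
  rw [← hs_conj', h1, hs_conj', hs_unit]
  rfl

omit [Fintype I] in
theorem eta_inj (i : I) (h : Λ) :
    Function.Injective (fun x : Unit × Λ => ((i, h * x.2) : I × Λ)) := by
  rintro ⟨⟨⟩, a⟩ ⟨⟨⟩, b⟩ e
  simp only [Prod.mk.injEq, true_and] at e
  rw [mul_left_cancel e]

/-- `δ_(*,k) ↦ δ_(i,hk)` -/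
noncomputable def eta (i : I) (h : Λ) : Ell2 (Unit × Λ) →L[ℂ] Ell2 (I × Λ) :=
  emb (fun x : Unit × Λ => ((i, h * x.2) : I × Λ)) (eta_inj i h)

omit [Fintype I] in
theorem eta_dl (i : I) (h : Λ) (u : Unit) (k : Λ) : eta i h (dl (u, k)) = dl (i, h * k) :=
  emb_dl _ _ _

omit [Fintype I] in
theorem eta_eqv (i : I) (h : Λ) : Eqv (RrH I Λ) (eta i h) := by
  intro s v
  have e : eta i h ∘L Rr Unit s = RrH I Λ s ∘L eta i h := by
    apply op_ext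
    rintro ⟨u, x⟩
    rw [comp_apply, comp_apply, Rr_dl, eta_dl, eta_dl, RrH_apply, Rr_dl, mul_assoc]
  exact congrArg (fun L : Ell2 (Unit × Λ) →L[ℂ] _ => L v) e

omit [Fintype I] in
theorem dense_eqv (u : Ell2 (I × Λ)) {ε : ℝ} (hε : 0 < ε) :
    ∃ B : Ell2 (Unit × Λ) →L[ℂ] Ell2 (I × Λ), Eqv (RrH I Λ) B ∧ ‖u - B (dl ((), 1))‖ ≤ ε := by
  obtain ⟨s, hs⟩ := exists_fin_approx u hε
  refine ⟨∑ x ∈ s, u x • eta x.1 x.2, Eqv.sum s fun x _ => (eta_eqv x.1 x.2).smul _, ?_⟩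
  have h1 : (∑ x ∈ s, u x • eta x.1 x.2 : Ell2 (Unit × Λ) →L[ℂ] Ell2 (I × Λ)) (dl ((), 1)) =
      ∑ x ∈ s, u x • (dl x : Ell2 (I × Λ)) := by
    rw [sum_apply]
    refine Finset.sum_congr rfl fun x _ => ?_
    rw [smul_apply, eta_dl, mul_one]
  rw [h1]
  exact hs

omit [Fintype I] in
theorem all_of_dense {P : Ell2 (I × Λ) → Prop} (hc : IsClosed {u | P u})
    (h : ∀ B : Ell2 (Unit × Λ) →L[ℂ] Ell2 (I × Λ), Eqv (RrH I Λ) B → P (B (dl ((), 1))))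
    (u : Ell2 (I × Λ)) : P u := by
  have h1 : u ∈ closure {u | P u} := by
    rw [Metric.mem_closure_iff]
    intro ε hε
    obtain ⟨B, hB, hd⟩ := dense_eqv u (half_pos hε)
    refine ⟨B (dl ((), 1)), h B hB, ?_⟩
    rw [dist_eq_norm]
    linarith
  rw [hc.closure_eq] at h1
  exact h1

theorem hsn_comp_adj_le (hv : Eqv (RrH I Λ) v) (hvn : ‖v‖ ≤ 1) (hB : Eqv (RrH I Λ) B) :
    hsn (B ∘L adjoint v) ≤ ‖B (dl ((), 1))‖ ^ 2 := by
  have h1 : Eqv (RrH I Λ) (B ∘L adjoint v) := by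
    intro s x
    rw [comp_apply, comp_apply, eqv_adjoint hv s x, RrH_apply, hB]
  rw [← hsn_adj_rect h1, adjoint_comp, adjoint_adjoint, ← hsn_unit, ← hsn_adj_rect hB]
  unfold hsn
  refine Finset.sum_le_sum fun i _ => ?_
  have h2 : ‖v (adjoint B (dl (i, 1)))‖ ≤ ‖adjoint B (dl (i, 1))‖ := by
    refine (v.le_opNorm _).trans ?_
    calc ‖v‖ * ‖adjoint B (dl (i, 1))‖ ≤ 1 * ‖adjoint B (dl (i, 1))‖ := by gcongr
      _ = ‖adjoint B (dl (i, 1))‖ := one_mul _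
  rw [comp_apply]
  gcongr

theorem bes_v (ha : AFrame p α) (hv : Eqv (RrH I Λ) v) (hvn : ‖v‖ ≤ 1) :
    Bes (Real.sqrt (hsn p)) (fun g => α g (v (dl ((), 1)))) := by
  intro F
  refine all_of_dense (P := fun u => ∑ g ∈ F, ‖⟪α g (v (dl ((), 1))), u⟫_ℂ‖ ^ 2 ≤
    Real.sqrt (hsn p) ^ 2 * ‖u‖ ^ 2) ?_ fun B hB => ?_
  · refine isClosed_le ?_ ?_
    · fun_prop
    · fun_prop
  · have h1 := bes_frame ha F (vec (B ∘L adjoint v))
    rw [H781.norm_vec] at h1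
    have h2 : ∀ g, ⟪α g (v (dl ((), 1))), B (dl ((), 1))⟫_ℂ =
        ⟪H781.vec (α g), H781.vec (B ∘L adjoint v)⟫_ℂ := by
      intro g
      rw [coeff (ha.eqv g) hv hB, H781.inner_vec]
    simp only [h2]
    refine h1.trans ?_
    have h3 := hsn_comp_adj_le hv hvn hB
    gcongr

/-- `V δ_g = α(g) v δ` -/
noncomputable def Vv (ha : AFrame p α) (hv : Eqv (RrH I Λ) v) (hvn : ‖v‖ ≤ 1) :
    Ell2 Γ →L[ℂ] Ell2 (I × Λ) := opOf (bes_v ha hv hvn)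

theorem Vv_dl (ha : AFrame p α) (hv : Eqv (RrH I Λ) v) (hvn : ‖v‖ ≤ 1) (g : Γ) :
    Vv ha hv hvn (dl g) = α g (v (dl ((), 1))) := opOf_dl _ g

theorem Vv_adj (ha : AFrame p α) (hv : Eqv (RrH I Λ) v) (hvn : ‖v‖ ≤ 1) (u : Ell2 (I × Λ)) (g : Γ) :
    adjoint (Vv ha hv hvn) u g = ⟪α g (v (dl ((), 1))), u⟫_ℂ := adj_opOf _ u g

theorem norm_Vv_adj (ha : AFrame p α) (hv : Eqv (RrH I Λ) v) (hvn : ‖v‖ ≤ 1)
    (hpv : p ∘L v = v) (hB : Eqv (RrH I Λ) B) :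
    ‖adjoint (Vv ha hv hvn) (B (dl ((), 1)))‖ ^ 2 = hsn p * hsn ((p ∘L B) ∘L adjoint v) := by
  have hDe : Eqv (RrH I Λ) ((p ∘L B) ∘L adjoint v) := by
    intro s x
    rw [comp_apply, comp_apply, eqv_adjoint hv s x, RrH_apply, comp_apply, hB, comp_apply,
      RrH_apply, p_eqv ha s, RrH_apply]
  have hD1 : p * ((p ∘L B) ∘L adjoint v) = (p ∘L B) ∘L adjoint v := by
    change (p * p) ∘L B ∘L adjoint v = _
    rw [ha.p_idem]
    rfl
  have hvp : adjoint v ∘L p = adjoint v := by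
    have h := congrArg adjoint hpv
    rw [adjoint_comp, ha.p_adj] at h
    exact h
  have hD2 : ((p ∘L B) ∘L adjoint v) * p = (p ∘L B) ∘L adjoint v := by
    change (p ∘L B) ∘L (adjoint v ∘L p) = _
    rw [hvp]
  have h1 : adjoint (Vv ha hv hvn) (B (dl ((), 1))) =
      adjoint (Wop ha) (vec ((p ∘L B) ∘L adjoint v)) := by
    apply ext_inner_dl
    intro g
    rw [Vv_adj, Wop_adj, H781.inner_vec, coeff (ha.eqv g) hv hB]
    unfold hs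
    refine Finset.sum_congr rfl fun i _ => ?_
    change _ = ⟪α g (dl (i, 1)), p (B (adjoint v (dl (i, 1))))⟫_ℂ
    rw [← ha.p_adj, adjoint_inner_right, ← mul_ap, p_mul ha]
    rfl
  have h2 : ⟪adjoint (Wop ha) (vec ((p ∘L B) ∘L adjoint v)),
      adjoint (Wop ha) (vec ((p ∘L B) ∘L adjoint v))⟫_ℂ =
      ((hsn p * hsn ((p ∘L B) ∘L adjoint v) : ℝ) : ℂ) := by
    rw [adjoint_inner_left, Wop_corner ha hDe hD1 hD2, inner_smul_right, H781.inner_vec, hs_self]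
    push_cast
    rfl
  rw [h1]
  rw [inner_self_c] at h2
  exact_mod_cast h2

end V

end Vale.Agent.P092.H547
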