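import Mathlib

/-!
Extreme points of bounded closed convex sets of a Hilbert space.
-/

set_option linter.all false

open scoped InnerProductSpace
open Filter Topology

namespace Vale.Agent.P092.H367.L547

theorem exists_extreme_real {H : Type*} [NormedAddCommGroup H] [InnerProductSpace ℝ H]
    [CompleteSpace H] {K : Set H} (hne : K.Nonempty) {C : ℝ} (hb : ∀ x ∈ K, ‖x‖ ≤ C)
    (hcl : IsClosed K) (hc : Convex ℝ K) :
    ∃ v ∈ K, ∀ x, v + x ∈ K → v - x ∈ K → x = 0 := by
  obtain ⟨e, he⟩ : ∃ e : H → WeakDual ℝ H, e = fun x =>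
    StrongDual.toWeakDual (InnerProductSpace.toDual ℝ H x) := ⟨_, rfl⟩
  have hea : ∀ x y : H, (e x) y = ⟪x, y⟫_ℝ := fun x y => by rw [he]; rfl
  have hclosed : IsClosed (e '' K) := by
    have h1 : e '' K = ⋂ q : {q : H × ℝ // ∀ k ∈ K, q.2 ≤ ⟪k, q.1⟫_ℝ},
        {φ : WeakDual ℝ H | q.1.2 ≤ φ q.1.1} := by
      apply Set.Subset.antisymm
      · rintro _ ⟨k, hk, rfl⟩
        rw [Set.mem_iInter]
        rintro ⟨q, hq⟩
        change q.2 ≤ (e k) q.1
        rw [hea]
        exact hq k hk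
      · intro φ hφ
        rw [Set.mem_iInter] at hφ
        obtain ⟨x, hx⟩ : ∃ x, e x = φ := by
          refine ⟨(InnerProductSpace.toDual ℝ H).symm (WeakDual.toStrongDual φ), ?_⟩
          rw [he]
          simp
        refine ⟨x, ?_, hx⟩
        by_contra hxK
        obtain ⟨f, u, hfx, hfb⟩ := geometric_hahn_banach_point_closed hc hcl hxK
        obtain ⟨y, hy⟩ : ∃ y, y = (InnerProductSpace.toDual ℝ H).symm f := ⟨_, rfl⟩
        have hfy : ∀ z, f z = ⟪z, y⟫_ℝ := by
          intro z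
          rw [real_inner_comm, hy, InnerProductSpace.toDual_symm_apply]
        have h2 := hφ ⟨(y, u), fun k hk => by rw [← hfy]; exact (hfb k hk).le⟩
        have h3 : u ≤ φ y := h2
        rw [← hx, hea, ← hfy] at h3
        linarith
    rw [h1]
    refine isClosed_iInter fun q => ?_
    exact isClosed_le continuous_const (WeakDual.eval_continuous _)
  have hbd : Bornology.IsBounded (e '' K) := by
    have h1 : Bornology.IsBounded ((InnerProductSpace.toDual ℝ H) '' K) := by
      rw [isBounded_iff_forall_norm_le]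
      refine ⟨C, ?_⟩
      rintro _ ⟨x, hx, rfl⟩
      rw [LinearIsometryEquiv.norm_map]
      exact hb x hx
    have h2 : WeakDual.toStrongDual ⁻¹' ((InnerProductSpace.toDual ℝ H) '' K) = e '' K := by
      rw [he]
      ext φ
      constructor
      · rintro ⟨x, hx, hxx⟩
        exact ⟨x, hx, hxx⟩
      · rintro ⟨x, hx, rfl⟩
        exact ⟨x, hx, rfl⟩
    rw [← h2]
    exact h1
  have hcomp : IsCompact (e '' K) := WeakDual.isCompact_of_bounded_of_closed hbd hclosed
  have hlc : LocallyConvexSpace ℝ (WeakDual ℝ H) :=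
    inferInstanceAs (LocallyConvexSpace ℝ (WeakBilin (topDualPairing ℝ H)))
  obtain ⟨φ, hφ⟩ := hcomp.extremePoints_nonempty (hne.image e)
  obtain ⟨⟨v, hv, rfl⟩, hext⟩ := hφ
  refine ⟨v, hv, fun x h1 h2 => ?_⟩
  have h3 := hext ⟨_, h1, rfl⟩ ⟨_, h2, rfl⟩ ⟨1 / 2, 1 / 2, by norm_num, by norm_num,
    by norm_num, by
      refine DFunLike.ext _ _ fun y => ?_
      change (1 / 2 : ℝ) * (e (v + x)) y + (1 / 2 : ℝ) * (e (v - x)) y = (e v) y
      rw [hea, hea, hea, inner_add_left, inner_sub_left]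
      ring⟩
  have h4 : (e (v + x)) x = (e v) x := by
    first
      | rw [h3]
      | rw [h3.1]
  rw [hea, hea, inner_add_left] at h4
  have h5 : ⟪x, x⟫_ℝ = 0 := by linarith
  exact inner_self_eq_zero.mp h5

theorem exists_extreme {H : Type*} [NormedAddCommGroup H] [InnerProductSpace ℂ H]
    [CompleteSpace H] {K : Set H} (hne : K.Nonempty) {C : ℝ} (hb : ∀ x ∈ K, ‖x‖ ≤ C)
    (hcl : IsClosed K)
    (hc : ∀ x ∈ K, ∀ y ∈ K, ∀ a b : ℝ, 0 ≤ a → 0 ≤ b → a + b = 1 →
      (a : ℂ) • x + (b : ℂ) • y ∈ K) :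
    ∃ v ∈ K, ∀ x, v + x ∈ K → v - x ∈ K → x = 0 := by
  let _ := InnerProductSpace.rclikeToReal ℂ H
  refine exists_extreme_real hne hb hcl ?_
  intro x hx y hy a b ha hb hab
  have := hc x hx y hy a b ha hb hab
  simpa only [Complex.coe_smul] using this

end Vale.Agent.P092.H367.L547
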