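import Vale.Agent.P092.R3.H423.Common

/-!
Intertwiners of a subgroup `K ≤ Γ` which is relatively ICC in `Γ`: `S* T` is a multiple of `p`,
and `S` is orthogonal to `A3(y) T` for `y ≠ 1`.
-/

set_option linter.all false

open scoped InnerProductSpace
open Filter Topology ContinuousLinearMap

namespace Vale.Agent.P092.H547

open Vale.Agent.P092.H160 Vale.Agent.P092.H367 Vale.Agent.P092.H423

/-- `K` is relatively ICC in `Γ`. -/
def RelICC {Γ : Type} [Group Γ] (K : Subgroup Γ) : Prop :=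
  ∀ g : Γ, g ≠ 1 → Set.Infinite {y : Γ | ∃ k ∈ K, y = k * g * k⁻¹}

section sub

variable {I Λ Γ : Type} [Fintype I] [Group Λ] [Group Γ]
  {p : Ell2 (I × Λ) →L[ℂ] Ell2 (I × Λ)} {α : Γ → (Ell2 (I × Λ) →L[ℂ] Ell2 (I × Λ))}
  {S T : Ell2 (I × Λ) →L[ℂ] Ell2 ((I × Λ) × (I × Λ) × (I × Λ))} {K : Subgroup Γ}

/-- Bounded cubic intertwiners of the subgroup `K`. -/
structure ItwS (α : Γ → (Ell2 (I × Λ) →L[ℂ] Ell2 (I × Λ))) (K : Subgroup Γ)
    (T : Ell2 (I × Λ) →L[ℂ] Ell2 ((I × Λ) × (I × Λ) × (I × Λ))) : Prop where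
  eqv : Eqv (R3H I Λ) T
  inv : ∀ k ∈ K, A3 α (k, k, k) ∘L T ∘L α k⁻¹ = T

namespace ItwS

theorem mono {K' : Subgroup Γ} (h : K' ≤ K) (hT : ItwS α K T) : ItwS α K' T :=
  ⟨hT.eqv, fun k hk => hT.inv k (h hk)⟩

theorem of_itw3 (hT : Itw3 α T) : ItwS α K T := ⟨hT.eqv, fun k _ => hT.inv k⟩

theorem itw3 (hT : ItwS α ⊤ T) : Itw3 α T := ⟨hT.eqv, fun k => hT.inv k (Subgroup.mem_top k)⟩

theorem add (hS : ItwS α K S) (hT : ItwS α K T) : ItwS α K (S + T) :=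
  ⟨hS.eqv.add hT.eqv, fun k hk => by
    rw [add_comp, comp_add, hS.inv k hk, hT.inv k hk]⟩

theorem smul (c : ℂ) (hT : ItwS α K T) : ItwS α K (c • T) :=
  ⟨hT.eqv.smul c, fun k hk => by
    rw [smul_comp, comp_smul, hT.inv k hk]⟩

theorem zero : ItwS α K 0 :=
  ⟨Eqv.zero, fun k _ => by rw [zero_comp, comp_zero]⟩

theorem comp_p (ha : AFrame p α) (hT : ItwS α K T) : T ∘L p = T := by
  have h := hT.inv 1 K.one_mem
  rw [inv_one, ha.one] at h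
  calc T ∘L p = (A3 α (1, 1, 1) ∘L T ∘L p) ∘L p := by rw [h]
    _ = A3 α (1, 1, 1) ∘L T ∘L (p * p) := rfl
    _ = T := by rw [ha.p_idem, h]

theorem A3_one (ha : AFrame p α) (hT : ItwS α K T) : A3 α 1 ∘L T = T := by
  have h := hT.inv 1 K.one_mem
  rw [inv_one, ha.one, hT.comp_p ha] at h
  exact h

theorem alpha (ha : AFrame p α) (hT : ItwS α K T) {g : Γ} (hg : g ∈ K) :
    T ∘L α g = A3 α (g, g, g) ∘L T := by
  have h := hT.inv g⁻¹ (K.inv_mem hg)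
  rw [inv_inv] at h
  calc T ∘L α g = (A3 α 1 ∘L T) ∘L α g := by rw [hT.A3_one ha]
    _ = (A3 α ((g, g, g) * (g⁻¹, g⁻¹, g⁻¹)) ∘L T) ∘L α g := by
        congr 3
        ext <;> simp
    _ = ((A3 α (g, g, g) * A3 α (g⁻¹, g⁻¹, g⁻¹)) ∘L T) ∘L α g := by rw [A3_mul ha.mul]
    _ = A3 α (g, g, g) ∘L (A3 α (g⁻¹, g⁻¹, g⁻¹) ∘L T ∘L α g) := rfl
    _ = A3 α (g, g, g) ∘L T := by rw [h]

/-- Conjugation by `g` moves the intertwiners of `K` to those of `g K g⁻¹`. -/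
theorem conj (ha : AFrame p α) (hT : ItwS α K T) (g : Γ) {K' : Subgroup Γ}
    (hK' : ∀ k ∈ K', g⁻¹ * k * g ∈ K) : ItwS α K' (A3 α (g, g, g) ∘L T ∘L α g⁻¹) := by
  refine ⟨?_, fun k hk => ?_⟩
  · have h1 : Eqv (R3H I Λ) (T ∘L α g⁻¹) := hT.eqv.comp (ha.eqv _)
    exact h1.left (A3_R3 ha.eqv _)
  · have h2 := hT.inv _ (hK' k hk)
    have e1 : ((k, k, k) * (g, g, g) : Γ × Γ × Γ) =
        (g, g, g) * (g⁻¹ * k * g, g⁻¹ * k * g, g⁻¹ * k * g) := by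
      ext <;> simp [mul_assoc]
    have e2 : g⁻¹ * k⁻¹ = (g⁻¹ * k * g)⁻¹ * g⁻¹ := by group
    calc A3 α (k, k, k) ∘L (A3 α (g, g, g) ∘L T ∘L α g⁻¹) ∘L α k⁻¹
        = (A3 α (k, k, k) * A3 α (g, g, g)) ∘L T ∘L (α g⁻¹ * α k⁻¹) := rfl
      _ = (A3 α (g, g, g) * A3 α (g⁻¹ * k * g, g⁻¹ * k * g, g⁻¹ * k * g)) ∘L T ∘L
            (α (g⁻¹ * k * g)⁻¹ * α g⁻¹) := by
          rw [← A3_mul ha.mul, e1, A3_mul ha.mul, ← ha.mul, e2, ha.mul]
      _ = A3 α (g, g, g) ∘L (A3 α (g⁻¹ * k * g, g⁻¹ * k * g, g⁻¹ * k * g) ∘L T ∘L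
            α (g⁻¹ * k * g)⁻¹) ∘L α g⁻¹ := rfl
      _ = A3 α (g, g, g) ∘L T ∘L α g⁻¹ := by rw [h2]

end ItwS

/-- The operator `S* A3(y) T`. -/
noncomputable def bi (α : Γ → (Ell2 (I × Λ) →L[ℂ] Ell2 (I × Λ)))
    (S T : Ell2 (I × Λ) →L[ℂ] Ell2 ((I × Λ) × (I × Λ) × (I × Λ))) (y : Γ × Γ × Γ) :
    Ell2 (I × Λ) →L[ℂ] Ell2 (I × Λ) := adjoint S ∘L A3 α y ∘L T

theorem bi_one (ha : AFrame p α) (hT : ItwS α K T) : bi α S T 1 = adjoint S ∘L T := by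
  rw [bi, hT.A3_one ha]

theorem bi_eqv (ha : AFrame p α) (hS : Eqv (R3H I Λ) S) (hT : Eqv (R3H I Λ) T) (y : Γ × Γ × Γ) :
    Eqv (RrH I Λ) (bi α S T y) :=
  hS.adj_comp adjoint_R3 (hT.left (A3_R3 ha.eqv y))

theorem bi_right (ha : AFrame p α) (hT : ItwS α K T) (y : Γ × Γ × Γ) {g : Γ} (hg : g ∈ K) :
    bi α S T y * α g = bi α S T (y * (g, g, g)) := by
  calc bi α S T y * α g = adjoint S ∘L A3 α y ∘L (T ∘L α g) := rfl
    _ = adjoint S ∘L (A3 α y * A3 α (g, g, g)) ∘L T := by rw [hT.alpha ha hg]; rfl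
    _ = bi α S T (y * (g, g, g)) := by rw [← A3_mul ha.mul]; rfl

theorem bi_adj (ha : AFrame p α) (y : Γ × Γ × Γ) :
    adjoint (bi α S T y) = bi α T S y⁻¹ := by
  rw [bi, adjoint_comp, adjoint_comp, adjoint_adjoint, A3_adj ha.adj, bi]
  rfl

theorem bi_left (ha : AFrame p α) (hS : ItwS α K S) (y : Γ × Γ × Γ) {g : Γ} (hg : g ∈ K) :
    α g * bi α S T y = bi α S T ((g, g, g) * y) := by
  have h1 := congrArg adjoint (bi_right (S := T) ha hS y⁻¹ (K.inv_mem hg))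
  rw [bi_adj ha] at h1
  have h2 : adjoint (bi α T S y⁻¹ * α g⁻¹) = adjoint (α g⁻¹) * adjoint (bi α T S y⁻¹) :=
    adjoint_comp _ _
  rw [h2, bi_adj ha, ha.adj, inv_inv, inv_inv, mul_inv_rev, inv_inv] at h1
  rw [h1]
  congr 2
  ext <;> simp

theorem bi_p (ha : AFrame p α) (hT : ItwS α K T) (y : Γ × Γ × Γ) : bi α S T y * p = bi α S T y := by
  rw [← ha.one, bi_right ha hT y K.one_mem]
  exact congrArg _ (mul_one y)

theorem p_bi (ha : AFrame p α) (hS : ItwS α K S) (y : Γ × Γ × Γ) : p * bi α S T y = bi α S T y := by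
  rw [← ha.one, bi_left ha hS y K.one_mem]
  exact congrArg _ (one_mul y)

theorem Tr_bi_conj (ha : AFrame p α) (hS : ItwS α K S) (hT : ItwS α K T) (y : Γ × Γ × Γ) {h : Γ}
    (hh : h ∈ K) : Tr (bi α S T ((h, h, h) * y * (h, h, h)⁻¹)) = Tr (bi α S T y) := by
  have e : ((h, h, h)⁻¹ : Γ × Γ × Γ) = (h⁻¹, h⁻¹, h⁻¹) := rfl
  rw [e, ← bi_right ha hT _ (K.inv_mem hh), ← bi_left ha hS _ hh,
    trace_comm ((ha.eqv h).mul (bi_eqv ha hS.eqv hT.eqv y)) (ha.eqv _),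
    ← mul_assoc, ← ha.mul, inv_mul_cancel, ha.one, p_bi ha hS]

theorem Tr_bi_tendsto (ha : AFrame p α) (S T : Ell2 (I × Λ) →L[ℂ]
    Ell2 ((I × Λ) × (I × Λ) × (I × Λ))) : Tendsto (fun y => Tr (bi α S T y)) cofinite (𝓝 0) := by
  have h1 : Tendsto (fun y => ∑ i : I, ⟪S (dl (i, 1)), A3 α y (T (dl (i, 1)))⟫_ℂ) cofinite
      (𝓝 (∑ i : I, 0)) :=
    tendsto_finsetSum _ fun i _ => A3_coeff_tendsto ha _ _
  rw [Finset.sum_const_zero] at h1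
  refine h1.congr fun y => ?_
  exact hs_eq_Tr S (A3 α y ∘L T)

theorem infinite_conjS (hK : RelICC K)
    (f : Γ × Γ × Γ →* Γ) (hf : ∀ h, f (h, h, h) = h) {y : Γ × Γ × Γ} (hy : f y ≠ 1) :
    Set.Infinite {z : Γ × Γ × Γ | ∃ h ∈ K, z = (h, h, h) * y * (h, h, h)⁻¹} := by
  refine Set.Infinite.of_image f ((hK _ hy).mono ?_)
  rintro _ ⟨h, hh, rfl⟩
  exact ⟨_, ⟨h, hh, rfl⟩, by rw [map_mul, map_mul, map_inv, hf]⟩

theorem infinite_diag (hK : RelICC K) {y : Γ × Γ × Γ} (hy : y ≠ 1) :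
    Set.Infinite {z : Γ × Γ × Γ | ∃ h ∈ K, z = (h, h, h) * y * (h, h, h)⁻¹} := by
  by_cases h1 : y.1 = 1
  · by_cases h2 : y.2.1 = 1
    · by_cases h3 : y.2.2 = 1
      · exact absurd (Prod.ext h1 (Prod.ext h2 h3)) hy
      · exact infinite_conjS hK ((MonoidHom.snd Γ Γ).comp (MonoidHom.snd Γ (Γ × Γ)))
          (fun _ => rfl) h3
    · exact infinite_conjS hK ((MonoidHom.fst Γ Γ).comp (MonoidHom.snd Γ (Γ × Γ)))
        (fun _ => rfl) h2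
  · exact infinite_conjS hK (MonoidHom.fst Γ (Γ × Γ)) (fun _ => rfl) h1

theorem Tr_bi_zero (ha : AFrame p α) (hK : RelICC K) (hS : ItwS α K S) (hT : ItwS α K T)
    {y : Γ × Γ × Γ} (hy : y ≠ 1) : Tr (bi α S T y) = 0 := by
  by_contra hne
  have hinf := infinite_diag hK hy
  have h2 := (Tr_bi_tendsto ha S T).norm
  rw [norm_zero] at h2
  have hpos : 0 < ‖Tr (bi α S T y)‖ := norm_pos_iff.mpr hne
  have h3 := h2.eventually (gt_mem_nhds hpos)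
  rw [Filter.eventually_cofinite] at h3
  refine hinf (h3.subset ?_)
  rintro z ⟨h, hh, rfl⟩
  change ¬ (‖Tr (bi α S T ((h, h, h) * y * (h, h, h)⁻¹))‖ < ‖Tr (bi α S T y)‖)
  rw [Tr_bi_conj ha hS hT y hh]
  exact lt_irrefl _

/-- (B) `S` is orthogonal to `A3(y) T` for `y ≠ 1`. -/
theorem hs_A3_zero (ha : AFrame p α) (hK : RelICC K) (hS : ItwS α K S) (hT : ItwS α K T)
    {y : Γ × Γ × Γ} (hy : y ≠ 1) : hs S (A3 α y ∘L T) = 0 := by
  rw [hs_eq_Tr]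
  exact Tr_bi_zero ha hK hS hT hy

/-- The coefficients of an element of the corner tend to zero. -/
theorem Tr_mul_tendsto (ha : AFrame p α) {A : Ell2 (I × Λ) →L[ℂ] Ell2 (I × Λ)}
    (hA : Eqv (RrH I Λ) A) : Tendsto (fun g => Tr (A * α g)) cofinite (𝓝 0) := by
  have h1 := (summable_hs ha (vc (adjoint A))).tendsto_cofinite_zero
  rw [tendsto_zero_iff_norm_tendsto_zero]
  have h2 := (Real.continuous_sqrt.tendsto 0).comp h1
  rw [Real.sqrt_zero] at h2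
  refine h2.congr fun g => ?_
  rw [Function.comp_apply, Real.sqrt_sq (norm_nonneg _), ← norm_inner_symm, inner_vc, hs_eq_Tr,
    adjoint_adjoint]
  rfl

/-- (A) `S* T` is a multiple of `p`. -/
theorem adj_mul (ha : AFrame p α) (hK : RelICC K) (hS : ItwS α K S) (hT : ItwS α K T) :
    adjoint S ∘L T = (hs S T / (hsn p : ℂ)) • p := by
  have hs0 := hsn_p_pos ha
  have hpe : Eqv (RrH I Λ) p := p_eqv ha
  have hbe : Eqv (RrH I Λ) (bi α S T 1) := bi_eqv ha hS.eqv hT.eqv 1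
  have key : ∀ g, g ≠ 1 → Tr (bi α S T 1 * α g) = 0 := by
    intro g hg
    by_contra hne
    have h2 := (Tr_mul_tendsto ha hbe).norm
    rw [norm_zero] at h2
    have hpos : 0 < ‖Tr (bi α S T 1 * α g)‖ := norm_pos_iff.mpr hne
    have h3 := h2.eventually (gt_mem_nhds hpos)
    rw [Filter.eventually_cofinite] at h3
    refine hK g hg (h3.subset ?_)
    rintro _ ⟨h, hh, rfl⟩
    change ¬ (‖Tr (bi α S T 1 * α (h * g * h⁻¹))‖ < ‖Tr (bi α S T 1 * α g)‖)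
    have h4 : bi α S T 1 * α h = α h * bi α S T 1 := by
      rw [bi_right ha hT 1 hh, bi_left ha hS 1 hh, one_mul, mul_one]
    have h5 : Tr (bi α S T 1 * α (h * g * h⁻¹)) = Tr (bi α S T 1 * α g) := by
      rw [ha.mul, ha.mul, ← mul_assoc, ← mul_assoc, h4, mul_assoc (α h) _ (α g),
        trace_comm ((ha.eqv h).mul (hbe.mul (ha.eqv g))) (ha.eqv h⁻¹), ← mul_assoc, ← ha.mul,
        inv_mul_cancel, ha.one, ← mul_assoc, p_bi ha hS]
    rw [h5]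
    exact lt_irrefl _
  rw [← sub_eq_zero, ← bi_one ha hT]
  refine eq_zero_of_trace ha (hbe.sub (hpe.smul _)) ?_ ?_ fun g => ?_
  · rw [mul_sub, p_bi ha hS, mul_smul_comm, ha.p_idem]
  · rw [sub_mul, bi_p ha hT, smul_mul_assoc, ha.p_idem]
  · have hTr : ∀ A B : Ell2 (I × Λ) →L[ℂ] Ell2 (I × Λ), ∀ c : ℂ,
        Tr (A - c • B) = Tr A - c * Tr B := by
      intro A B c
      unfold Tr
      rw [Finset.mul_sum, ← Finset.sum_sub_distrib]
      refine Finset.sum_congr rfl fun i _ => ?_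
      rw [sub_apply, smul_apply, inner_sub_right, inner_smul_right]
    have hpg : p * α g = α g := by rw [← ha.one, ← ha.mul, one_mul]
    rw [sub_mul, smul_mul_assoc, hTr, hpg]
    by_cases hg : g = 1
    · rw [hg, ha.one, bi_p ha hT, bi_one ha hT, ← hs_eq_Tr, Tr_p_eq ha]
      have : (hsn p : ℂ) ≠ 0 := by exact_mod_cast hs0.ne'
      field_simp
      ring
    · rw [ha.orth g hg, key g hg, mul_zero, sub_zero]

/-- `T* T` is a positive multiple of `p`. -/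
theorem adj_self (ha : AFrame p α) (hK : RelICC K) (hT : ItwS α K T) :
    adjoint T ∘L T = ((hsn T / hsn p : ℝ) : ℂ) • p := by
  rw [adj_mul ha hK hT hT, hs_self]
  push_cast
  rfl

theorem hsn_pos (hT : ItwS α K T) (hT0 : T ≠ 0) : 0 < hsn T :=
  lt_of_le_of_ne (hsn_nonneg T) fun h => hT0 (hsn_eq_zero hT.eqv h.symm)

end sub

end Vale.Agent.P092.H547
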