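import Vale.Agent.P092.R3.H781.Tra
import Vale.Agent.P092.R3.H547.Comp
import Vale.Agent.P092.R3.H547.SubA

/-!
Every nonzero corner `p (M_I ⊗ L(Λ)) p`, `Λ` ICC, supports a finite family `v_a` of equivariant
operators from one block with `p v_a = v_a` and `∑ v_a* v_a = 1`.
-/

set_option linter.all false

open scoped InnerProductSpace
open Filter Topology ContinuousLinearMap

namespace Vale.Agent.P092.H547

open Vale.Agent.P092.H160 Vale.Agent.P092.H367 Vale.Agent.P092.H423 Vale.Agent.P092.H781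

section blk

variable {I Λ : Type} [Fintype I] [Group Λ]

omit [Fintype I] [Group Λ] in
theorem ea_inj (m : ℕ) (a : Fin m) :
    Function.Injective (fun x : I × Λ => (((a, x.1), x.2) : (Fin m × I) × Λ)) := by
  rintro ⟨i, h⟩ ⟨j, k⟩ e
  simp only [Prod.mk.injEq, true_and] at e
  exact Prod.ext e.1 e.2

/-- The embedding of a block. -/
noncomputable def ea (I Λ : Type) (m : ℕ) (a : Fin m) :
    Ell2 (I × Λ) →L[ℂ] Ell2 ((Fin m × I) × Λ) :=
  emb (fun x : I × Λ => ((a, x.1), x.2)) (ea_inj m a)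

omit [Fintype I] [Group Λ] in
theorem ea_dl (m : ℕ) (a : Fin m) (i : I) (h : Λ) :
    ea I Λ m a (dl (i, h)) = dl ((a, i), h) := emb_dl _ _ _

omit [Fintype I] in
theorem ea_eqv (m : ℕ) (a : Fin m) : Eqv (RrH (Fin m × I) Λ) (ea I Λ m a) := by
  intro s v
  have h : ea I Λ m a ∘L Rr I s = RrH (Fin m × I) Λ s ∘L ea I Λ m a := by
    apply op_ext
    rintro ⟨i, x⟩
    rw [comp_apply, comp_apply, Rr_dl, ea_dl, ea_dl, RrH_apply, Rr_dl]
  exact congrArg (fun L : Ell2 (I × Λ) →L[ℂ] _ => L v) h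

omit [Fintype I] [Group Λ] in
theorem adj_ea_self (m : ℕ) (a : Fin m) (v : Ell2 (I × Λ)) :
    adjoint (ea I Λ m a) (ea I Λ m a v) = v := adj_emb_emb _ _ v

omit [Fintype I] [Group Λ] in
theorem adj_ea_ne (m : ℕ) {a b : Fin m} (hab : a ≠ b) (v : Ell2 (I × Λ)) :
    adjoint (ea I Λ m a) (ea I Λ m b v) = 0 :=
  adj_emb_emb' _ _ _ _ (fun x z e => hab (congrArg (fun y : (Fin m × I) × Λ => y.1.1) e)) v

omit [Fintype I] [Group Λ] in
theorem sum_ea (m : ℕ) : ∑ a : Fin m, ea I Λ m a ∘L adjoint (ea I Λ m a) = 1 := by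
  classical
  apply op_ext
  rintro ⟨⟨b, i⟩, h⟩
  rw [sum_apply, Finset.sum_eq_single b]
  · rw [comp_apply, ← ea_dl, adj_ea_self]
    rfl
  · intro a _ hab
    rw [comp_apply, ← ea_dl, adj_ea_ne m hab, map_zero]
  · intro h1
    exact absurd (Finset.mem_univ b) h1

/-- The block diagonal projection. -/
noncomputable def Pm (m : ℕ) (p : Ell2 (I × Λ) →L[ℂ] Ell2 (I × Λ)) :
    Ell2 ((Fin m × I) × Λ) →L[ℂ] Ell2 ((Fin m × I) × Λ) :=
  ∑ a : Fin m, ea I Λ m a ∘L p ∘L adjoint (ea I Λ m a)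

omit [Fintype I] [Group Λ] in
theorem adj_ea_Pm (m : ℕ) (p : Ell2 (I × Λ) →L[ℂ] Ell2 (I × Λ)) (b : Fin m) :
    adjoint (ea I Λ m b) ∘L Pm m p = p ∘L adjoint (ea I Λ m b) := by
  classical
  ext1 v
  rw [comp_apply, Pm, sum_apply, map_sum, Finset.sum_eq_single b]
  · rw [comp_apply, comp_apply, adj_ea_self]
  · intro a _ hab
    rw [comp_apply, adj_ea_ne m hab.symm]
  · intro h1
    exact absurd (Finset.mem_univ b) h1

omit [Fintype I] [Group Λ] in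
theorem Pm_adj (m : ℕ) {p : Ell2 (I × Λ) →L[ℂ] Ell2 (I × Λ)} (h : adjoint p = p) :
    adjoint (Pm m p) = Pm m p := by
  rw [Pm, map_sum]
  refine Finset.sum_congr rfl fun a _ => ?_
  rw [adjoint_comp, adjoint_comp, adjoint_adjoint, h]
  rfl

omit [Fintype I] [Group Λ] in
theorem Pm_idem (m : ℕ) {p : Ell2 (I × Λ) →L[ℂ] Ell2 (I × Λ)} (h : p * p = p) :
    Pm m p * Pm m p = Pm m p := by
  have h1 : Pm m p * Pm m p = ∑ a : Fin m, (ea I Λ m a ∘L p ∘L adjoint (ea I Λ m a)) * Pm m p := by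
    nth_rewrite 1 [Pm]
    rw [Finset.sum_mul]
  rw [h1]
  nth_rewrite 2 [Pm]
  refine Finset.sum_congr rfl fun a _ => ?_
  change ea I Λ m a ∘L p ∘L (adjoint (ea I Λ m a) ∘L Pm m p) = _
  rw [adj_ea_Pm]
  change ea I Λ m a ∘L (p * p) ∘L adjoint (ea I Λ m a) = _
  rw [h]

theorem Pm_eqv (m : ℕ) {p : Ell2 (I × Λ) →L[ℂ] Ell2 (I × Λ)} (h : Eqv (RrH I Λ) p) :
    Eqv (RrH (Fin m × I) Λ) (Pm m p) :=
  Eqv.sum _ fun a _ => L547.comp_adj_eqv (ea_eqv m a) (L547.comp_adj_eqv h (eqv_adjoint (ea_eqv m a)))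

theorem Tr_sum {J : Type} [Fintype J] {ι : Type} (F : Finset ι)
    (A : ι → (Ell2 (J × Λ) →L[ℂ] Ell2 (J × Λ))) : Tr (∑ a ∈ F, A a) = ∑ a ∈ F, Tr (A a) := by
  unfold Tr
  rw [Finset.sum_comm]
  refine Finset.sum_congr rfl fun i _ => ?_
  rw [sum_apply, inner_sum]

theorem Tr_Pm (m : ℕ) {p : Ell2 (I × Λ) →L[ℂ] Ell2 (I × Λ)} (h : Eqv (RrH I Λ) p) :
    Tr (Pm m p) = (m : ℂ) * Tr p := by
  rw [Pm, Tr_sum]
  have h1 : ∀ a : Fin m, Tr (ea I Λ m a ∘L p ∘L adjoint (ea I Λ m a)) = Tr p := by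
    intro a
    rw [trace_rect (ea_eqv m a) (L547.comp_adj_eqv h (eqv_adjoint (ea_eqv m a)))]
    congr 1
    ext1 v
    change p (adjoint (ea I Λ m a) (ea I Λ m a v)) = p v
    rw [adj_ea_self]
  rw [Finset.sum_congr rfl fun a _ => h1 a, Finset.sum_const, Finset.card_univ, Fintype.card_fin,
    nsmul_eq_mul]

/-- (C0) The block decomposition. -/
theorem exists_block (hL : ∀ g : Λ, g ≠ 1 → Set.Infinite {y : Λ | ∃ h, y = h * g * h⁻¹})
    {p : Ell2 (I × Λ) →L[ℂ] Ell2 (I × Λ)} (p_adj : adjoint p = p) (p_idem : p * p = p)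
    (p_ne : p ≠ 0) (hpe : Eqv (RrH I Λ) p) :
    ∃ (m : ℕ) (v : Fin m → (Ell2 (Unit × Λ) →L[ℂ] Ell2 (I × Λ))),
      (∀ a, Eqv (RrH I Λ) (v a)) ∧ (∀ a, p ∘L v a = v a) ∧
        ∑ a, adjoint (v a) ∘L v a = 1 := by
  have hs0 : 0 < hsn p := lt_of_le_of_ne (hsn_nonneg p) fun h => p_ne (hsn_eq_zero hpe h.symm)
  have hTp : Tr p = (hsn p : ℂ) := by
    rw [← hs_self, hs_eq_Tr, p_adj]
    change _ = Tr (p * p)
    rw [p_idem]
  obtain ⟨m, hm⟩ := exists_nat_gt (1 / hsn p)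
  have hm1 : 1 < (m : ℝ) * hsn p := by
    rwa [div_lt_iff₀ hs0] at hm
  obtain ⟨w, hw, hPw, hww, hor⟩ := compare hL (Pm_adj m p_adj) (Pm_idem m p_idem) (Pm_eqv m hpe)
  have h1 : adjoint w ∘L w = 1 := by
    refine hor.resolve_right fun h2 => ?_
    have h3 : Tr (w ∘L adjoint w) = Tr (adjoint w ∘L w) := trace_rect hw (eqv_adjoint hw)
    rw [h2, Tr_Pm m hpe, hTp, ← hsn_eq_Tr, hsn_unit] at h3
    have h4 : (m : ℝ) * hsn p = ‖w (dl ((), 1))‖ ^ 2 := by exact_mod_cast h3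
    have h5 : ‖w‖ ≤ 1 := by
      refine norm_le_of_adj (P := adjoint w ∘L w) (norm_proj_le ?_ ?_) rfl
      · rw [adjoint_comp, adjoint_adjoint]
      · change adjoint w ∘L (w ∘L adjoint w ∘L w) = adjoint w ∘L w
        rw [hww]
    have h6 : ‖w (dl ((), 1))‖ ≤ 1 := by
      refine (w.le_opNorm _).trans ?_
      rw [norm_dl, mul_one]
      exact h5
    have h7 : ‖w (dl ((), 1))‖ ^ 2 ≤ 1 := pow_le_one₀ (norm_nonneg _) h6
    linarith
  refine ⟨m, fun a => adjoint (ea I Λ m a) ∘L w, fun a => ?_, fun a => ?_, ?_⟩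
  · exact L547.comp_adj_eqv (eqv_adjoint (ea_eqv m a)) hw
  · have h2 := congrArg (fun L : Ell2 ((Fin m × I) × Λ) →L[ℂ] Ell2 (I × Λ) => L ∘L w)
      (adj_ea_Pm m p a)
    have h3 : (adjoint (ea I Λ m a) ∘L Pm m p) ∘L w = adjoint (ea I Λ m a) ∘L w := by
      rw [ContinuousLinearMap.comp_assoc, hPw]
    exact h2.symm.trans h3
  · have h2 : ∀ a : Fin m, adjoint (adjoint (ea I Λ m a) ∘L w) ∘L (adjoint (ea I Λ m a) ∘L w) =
        adjoint w ∘L (ea I Λ m a ∘L adjoint (ea I Λ m a)) ∘L w := by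
      intro a
      rw [adjoint_comp, adjoint_adjoint]
      rfl
    rw [Finset.sum_congr rfl fun a _ => h2 a]
    have h3 : ∑ a : Fin m, adjoint w ∘L (ea I Λ m a ∘L adjoint (ea I Λ m a)) ∘L w =
        adjoint w ∘L (∑ a : Fin m, ea I Λ m a ∘L adjoint (ea I Λ m a)) ∘L w := by
      ext1 v
      rw [sum_apply]
      simp only [comp_apply, sum_apply, map_sum]
    rw [h3, sum_ea]
    exact h1

end blk

end Vale.Agent.P092.H547
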